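import Mathlib.Combinatorics.Matroid.Minor.Contract

namespace Vale.Agent.Lib.P068

open Set Matroid

variable {α ι : Type*}

/-- A matroid is uniform if every subset of its ground set is independent or spanning. -/
def IsUniform (M : Matroid α) : Prop :=
  ∀ X : Set α, X ⊆ M.E → M.Indep X ∨ M.Spanning X

/-- A packing/covering partition for the family `M` of matroids on the common ground set `E`:
`E = P ⊔ C`, pairwise disjoint sets `S i ⊆ P` with `S i` spanning in the restriction of `M i`
to `P`, and sets `I i ⊆ C`, independent in the contraction of `M i` onto `C`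
(written as the dual of the restriction to `C` of the dual), whose union is `C`. -/
def HasPackingCovering (E : Set α) (M : ι → Matroid α) : Prop :=
  ∃ (P C : Set α) (S I : ι → Set α),
    P ∪ C = E ∧ Disjoint P C ∧
    (∀ i, S i ⊆ P) ∧ (∀ i, I i ⊆ C) ∧
    Pairwise (fun i j => Disjoint (S i) (S j)) ∧
    (∀ i, ((M i).restrict P).closure (S i) = P) ∧
    (∀ i, (((M i).dual.restrict C).dual).Indep (I i)) ∧
    (⋃ i, I i) = C

/-- The pair `(M, N)` of matroids (on a common ground set) satisfies intersection: there is a
set `JM ∪ JN`, independent in both, with `JM`, `JN` disjoint, such that the `M`-closure of `JM`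
together with the `N`-closure of `JN` is the whole ground set. -/
def SatisfiesIntersection (M N : Matroid α) : Prop :=
  ∃ JM JN : Set α, Disjoint JM JN ∧ M.Indep (JM ∪ JN) ∧ N.Indep (JM ∪ JN) ∧
    M.closure JM ∪ N.closure JN = M.E

end Vale.Agent.Lib.P068
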