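import Mathlib.Combinatorics.Matroid.Minor.Contract
import Vale.Agent.Lib.P068.Defs

namespace Vale.Agent.Lib.P068

open Set Matroid

variable {α : Type*}

/-- If `e` is spanned by the independent set `J` and by `J \ {y}` for every `y ∈ J \ A`,
then `e` is spanned by `A`. -/
lemma mem_closure_of_forall_mem_closure_sdiff (M : Matroid α) {J A : Set α} (hJ : M.Indep J)
    {e : α} (he : e ∈ M.closure J) (h : ∀ y ∈ J \ A, e ∈ M.closure (J \ {y})) :
    e ∈ M.closure A := by
  by_cases hne : (J \ A).Nonempty
  · have hJs : ((fun y => J \ {y}) '' (J \ A)).Nonempty := hne.image _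
    have key := hJ.closure_sInter_eq_biInter_closure_of_forall_subset hJs (by
      rintro X ⟨y, -, rfl⟩
      exact sdiff_subset)
    have hmem : e ∈ M.closure (⋂₀ ((fun y => J \ {y}) '' (J \ A))) := by
      rw [key]
      simp only [mem_iInter]
      rintro X ⟨y, hy, rfl⟩
      exact h y hy
    refine M.closure_subset_closure ?_ hmem
    intro a ha
    obtain ⟨y0, hy0⟩ := hne
    have haJ : a ∈ J := (ha _ ⟨y0, hy0, rfl⟩).1
    by_contra haA
    exact (ha _ ⟨a, ⟨haJ, haA⟩, rfl⟩).2 rfl
  · have hJA : J ⊆ A := by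
      intro a ha
      by_contra haA
      exact hne ⟨a, ha, haA⟩
    exact M.closure_subset_closure hJA he

/-- Triangular exchange lemma. -/
lemma triangular_exchange (M : Matroid α) {I : Set α} (hI : M.Indep I) (k : ℕ) (y z : ℕ → α)
    (hz : ∀ j < k, z j ∉ I)
    (hzc : ∀ j < k, z j ∈ M.closure I)
    (ha : ∀ j < k, z j ∉ M.closure (I \ {y j}))
    (hb : ∀ i j, i < j → j < k → z j ∈ M.closure (I \ {y i})) :
    M.Indep ((I \ {a | ∃ i < k, a = y i}) ∪ {a | ∃ j < k, a = z j}) ∧
    I ⊆ M.closure ((I \ {a | ∃ i < k, a = y i}) ∪ {a | ∃ j < k, a = z j}) := by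
  have hIE : I ⊆ M.E := hI.subset_ground
  have main : ∀ d, d ≤ k →
      M.Indep ((I \ {a | ∃ i, k - d ≤ i ∧ i < k ∧ a = y i}) ∪
        {a | ∃ j, k - d ≤ j ∧ j < k ∧ a = z j}) ∧
      I ⊆ M.closure ((I \ {a | ∃ i, k - d ≤ i ∧ i < k ∧ a = y i}) ∪
        {a | ∃ j, k - d ≤ j ∧ j < k ∧ a = z j}) := by
    intro d
    induction d with
    | zero =>
      intro _
      have hK : (I \ {a | ∃ i, k - 0 ≤ i ∧ i < k ∧ a = y i}) ∪
          {a | ∃ j, k - 0 ≤ j ∧ j < k ∧ a = z j} = I := by
        ext a
        simp only [mem_union, mem_sdiff, mem_ofPred_eq]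
        constructor
        · rintro (⟨haI, -⟩ | ⟨j, h1, h2, -⟩)
          · exact haI
          · omega
        · intro haI
          refine Or.inl ⟨haI, ?_⟩
          rintro ⟨i, h1, h2, -⟩
          omega
      rw [hK]
      exact ⟨hI, M.subset_closure I hIE⟩
    | succ d ih =>
      intro hd
      obtain ⟨ihI, ihC⟩ := ih (by omega)
      set m := k - (d + 1) with hm
      have hm1 : k - d = m + 1 := by omega
      have hmk : m < k := by omega
      rw [hm1] at ihI ihC
      set K1 := (I \ {a | ∃ i, m + 1 ≤ i ∧ i < k ∧ a = y i}) ∪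
        {a | ∃ j, m + 1 ≤ j ∧ j < k ∧ a = z j} with hK1
      set K0 := (I \ {a | ∃ i, m ≤ i ∧ i < k ∧ a = y i}) ∪
        {a | ∃ j, m ≤ j ∧ j < k ∧ a = z j} with hK0
      set A := K1 \ {y m} with hA
      -- A is spanned by I \ {y m}
      have hAsub : A ⊆ M.closure (I \ {y m}) := by
        rintro a ⟨haK, hay⟩
        rcases haK with ⟨haI, -⟩ | ⟨j, hj1, hj2, rfl⟩
        · exact M.subset_closure _ (sdiff_subset.trans hIE) ⟨haI, hay⟩
        · exact hb m j (by omega) hj2
      have hAcl : M.closure A ⊆ M.closure (I \ {y m}) :=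
        M.closure_subset_closure_of_subset_closure hAsub
      have hzA : z m ∉ M.closure A := fun h => ha m hmk (hAcl h)
      have hAind : M.Indep A := ihI.subset sdiff_subset
      have hzE : z m ∈ M.E := M.mem_ground_of_mem_closure (hzc m hmk)
      have hins : M.Indep (insert (z m) A) := by
        rw [Matroid.insert_indep_iff]
        exact ⟨hAind, fun _ => ⟨hzE, hzA⟩⟩
      have hK1sub : K1 ⊆ insert (y m) A := by
        intro a haK
        by_cases hay : a = y m
        · exact Or.inl hay
        · exact Or.inr ⟨haK, hay⟩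
      have hz1 : z m ∈ M.closure (insert (y m) A) :=
        M.closure_subset_closure_of_subset_closure
          (ihC.trans (M.closure_subset_closure hK1sub)) (hzc m hmk)
      have hy1 : y m ∈ M.closure (insert (z m) A) := Matroid.mem_closure_insert hzA hz1
      have hK0sub : K0 ⊆ insert (z m) A := by
        rintro a (⟨haI, hay⟩ | ⟨j, hj1, hj2, rfl⟩)
        · refine Or.inr ⟨Or.inl ⟨haI, ?_⟩, ?_⟩
          · rintro ⟨i, hi1, hi2, rfl⟩
            exact hay ⟨i, by omega, hi2, rfl⟩
          · rintro rfl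
            exact hay ⟨m, le_rfl, hmk, rfl⟩
        · by_cases hjm : j = m
          · subst hjm; exact Or.inl rfl
          · refine Or.inr ⟨Or.inr ⟨j, by omega, hj2, rfl⟩, ?_⟩
            intro hzy
            by_cases hyI : y m ∈ I
            · exact hz j hj2 (hzy ▸ hyI)
            · -- y m ∉ I, so I \ {y m} = I and z m ∉ closure I, contradiction
              have : I \ {y m} = I := by
                ext b
                simp only [mem_sdiff, mem_singleton_iff, and_iff_left_iff_imp]
                rintro hbI rfl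
                exact hyI hbI
              have h' := ha m hmk
              rw [this] at h'
              exact h' (hzc m hmk)
      have hsup : insert (z m) A ⊆ K0 := by
        rintro a (rfl | ⟨haK, hay⟩)
        · exact Or.inr ⟨m, le_rfl, hmk, rfl⟩
        · rcases haK with ⟨haI, hny⟩ | ⟨j, hj1, hj2, rfl⟩
          · refine Or.inl ⟨haI, ?_⟩
            rintro ⟨i, hi1, hi2, rfl⟩
            by_cases him : i = m
            · subst him; exact hay rfl
            · exact hny ⟨i, by omega, hi2, rfl⟩
          · exact Or.inr ⟨j, by omega, hj2, rfl⟩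
      refine ⟨hins.subset hK0sub, ?_⟩
      have h1 : insert (y m) A ⊆ M.closure (insert (z m) A) := by
        rintro a (rfl | haA)
        · exact hy1
        · exact M.subset_closure _ hins.subset_ground (Or.inr haA)
      calc I ⊆ M.closure K1 := ihC
        _ ⊆ M.closure (insert (y m) A) := M.closure_subset_closure hK1sub
        _ ⊆ M.closure (insert (z m) A) := M.closure_subset_closure_of_subset_closure h1
        _ ⊆ M.closure K0 := M.closure_subset_closure hsup
  have h0 := main k le_rfl
  have e1 : {a | ∃ i, k - k ≤ i ∧ i < k ∧ a = y i} = {a | ∃ i < k, a = y i} := by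
    ext a
    simp only [mem_ofPred_eq, Nat.sub_self, Nat.zero_le, true_and]
  have e2 : {a | ∃ j, k - k ≤ j ∧ j < k ∧ a = z j} = {a | ∃ j < k, a = z j} := by
    ext a
    simp only [mem_ofPred_eq, Nat.sub_self, Nat.zero_le, true_and]
  rw [e1, e2] at h0
  exact h0

/-- Finite exchange: if `x` is spanned by `X ∪ F` but not by `X`, then some `f ∈ F` is
spanned by `x`, `X` and the rest of `F`. -/
lemma exists_mem_closure_erase (M : Matroid α) [DecidableEq α] (F : Finset α) :
    ∀ (X : Set α) (x : α), x ∈ M.closure (X ∪ F) → x ∉ M.closure X →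
      ∃ f ∈ F, f ∈ M.closure (insert x (X ∪ (F.erase f : Finset α))) := by
  induction F using Finset.induction_on with
  | empty =>
    intro X x hx hnx
    simp only [Finset.coe_empty, union_empty] at hx
    exact absurd hx hnx
  | insert g F hg ih =>
    intro X x hx hnx
    by_cases hxF : x ∈ M.closure (X ∪ F)
    · obtain ⟨f, hf, hfc⟩ := ih X x hxF hnx
      refine ⟨f, Finset.mem_insert_of_mem hf, M.closure_subset_closure ?_ hfc⟩
      apply insert_subset_insert
      apply union_subset_union_right
      intro a ha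
      simp only [Finset.coe_erase, Finset.coe_insert, mem_sdiff, mem_insert_iff, Finset.mem_coe,
        mem_singleton_iff] at ha ⊢
      exact ⟨Or.inr ha.1, ha.2⟩
    · refine ⟨g, Finset.mem_insert_self g F, ?_⟩
      have h1 : x ∈ M.closure (insert g (X ∪ F)) := by
        have : X ∪ ((insert g F : Finset α) : Set α) = insert g (X ∪ F) := by
          rw [Finset.coe_insert, union_insert]
        rwa [this] at hx
      have h2 := Matroid.mem_closure_insert hxF h1
      rw [Finset.erase_insert hg]
      exact h2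

section Walk

variable (R : α → α → Prop) (S T : Set α)

/-- A walk of length `k` from `S` to `T` along `R`. -/
def IsWalk (k : ℕ) (x : ℕ → α) : Prop :=
  x 0 ∈ S ∧ x k ∈ T ∧ ∀ t < k, R (x t) (x (t + 1))

lemma exists_shortest_walk (h : ∃ k x, IsWalk R S T k x) :
    ∃ k x, IsWalk R S T k x ∧ ∀ i j, i + 2 ≤ j → j ≤ k → ¬ R (x i) (x j) := by
  classical
  obtain ⟨x, hx⟩ := Nat.find_spec h
  refine ⟨Nat.find h, x, hx, ?_⟩
  intro i j hij hjk hR
  have hlt : Nat.find h - (j - i - 1) < Nat.find h := by omega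
  apply Nat.find_min h hlt
  refine ⟨fun t => if t ≤ i then x t else x (t + (j - i - 1)), ?_, ?_, ?_⟩
  · simp only [Nat.zero_le, if_true]; exact hx.1
  · have h1 : ¬ (Nat.find h - (j - i - 1) ≤ i) := by omega
    simp only [h1, if_false]
    have h2 : Nat.find h - (j - i - 1) + (j - i - 1) = Nat.find h := by omega
    rw [h2]; exact hx.2.1
  · intro t ht
    by_cases h1 : t + 1 ≤ i
    · have h2 : t ≤ i := by omega
      simp only [h1, h2, if_true]
      exact hx.2.2 t (by omega)
    · by_cases h2 : t ≤ i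
      · have h3 : t = i := by omega
        subst h3
        simp only [h1, h2, if_true, if_false]
        have h4 : t + 1 + (j - t - 1) = j := by omega
        rw [h4]; exact hR
      · simp only [h1, h2, if_false]
        have h4 : t + 1 + (j - i - 1) = t + (j - i - 1) + 1 := by omega
        rw [h4]
        exact hx.2.2 _ (by omega)

end Walk

section Exchange

variable (M N : Matroid α) (J : Set α)

/-- `N`-exchange arc from `x ∉ J` to `y ∈ J`. -/
def NArc (x y : α) : Prop := x ∉ J ∧ y ∈ J ∧ x ∈ N.closure J ∧ x ∉ N.closure (J \ {y})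

/-- `M`-exchange arc from `y ∈ J` to `x ∉ J`. -/
def MArc (y x : α) : Prop := y ∈ J ∧ x ∉ J ∧ x ∈ M.closure J ∧ x ∉ M.closure (J \ {y})

/-- Two consecutive arcs. -/
def Step (x x' : α) : Prop := ∃ y, NArc N J x y ∧ MArc M J y x'

/-- Elements outside `J` from which a sink can be reached. -/
def ReachX : Set α :=
  {u | ∃ (k : ℕ) (x : ℕ → α), x 0 = u ∧ x k ∈ N.E \ N.closure J ∧
    ∀ t < k, Step M N J (x t) (x (t + 1))}

/-- Elements of `J` from which a sink can be reached. -/
def ReachY : Set α := {y | ∃ x' ∈ ReachX M N J, MArc M J y x'}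

lemma intersection_of_no_walk (hE : M.E = N.E) (hMJ : M.Indep J) (hNJ : N.Indep J)
    (hno : ¬ ∃ k x, IsWalk (Step M N J) (M.E \ M.closure J) (N.E \ N.closure J) k x) :
    SatisfiesIntersection M N := by
  classical
  have hUxJ : ∀ u ∈ ReachX M N J, u ∉ J := by
    rintro u ⟨k, x, rfl, hxk, hstep⟩ huJ
    rcases Nat.eq_zero_or_pos k with rfl | hk
    · exact hxk.2 (N.subset_closure J hNJ.subset_ground huJ)
    · obtain ⟨y, hN, -⟩ := hstep 0 hk
      exact hN.1 huJ
  have hUyJ : ∀ y ∈ ReachY M N J, y ∈ J := fun y ⟨x', _, h⟩ => h.1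
  have hprep : ∀ u x', Step M N J u x' → x' ∈ ReachX M N J → u ∈ ReachX M N J := by
    rintro u x' hs ⟨k, x, rfl, hxk, hstep⟩
    refine ⟨k + 1, fun t => Nat.casesOn t u (fun n => x n), rfl, hxk, ?_⟩
    intro t ht
    cases t with
    | zero => exact hs
    | succ t => exact hstep t (by omega)
  refine ⟨J ∩ (ReachX M N J ∪ ReachY M N J), J \ (ReachX M N J ∪ ReachY M N J), ?_, ?_, ?_, ?_⟩
  · exact disjoint_sdiff_right.mono_left inter_subset_right
  · rw [inter_union_sdiff]; exact hMJ
  · rw [inter_union_sdiff]; exact hNJ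
  · apply subset_antisymm
    · exact union_subset (M.closure_subset_ground _) (hE ▸ N.closure_subset_ground _)
    · intro e he
      by_cases heU : e ∈ ReachX M N J ∪ ReachY M N J
      · left
        by_cases heJ : e ∈ J
        · exact M.mem_closure_of_mem' ⟨heJ, heU⟩ he
        · have heUx : e ∈ ReachX M N J := by
            rcases heU with h | h
            · exact h
            · exact absurd (hUyJ e h) heJ
          have hecl : e ∈ M.closure J := by
            by_contra hcl
            obtain ⟨k, x, hx0, hxk, hstep⟩ := heUx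
            exact hno ⟨k, x, ⟨hx0 ▸ ⟨he, hcl⟩, hxk, hstep⟩⟩
          apply mem_closure_of_forall_mem_closure_sdiff M hMJ hecl
          rintro y ⟨hyJ, hyU⟩
          by_contra hy
          exact hyU ⟨hyJ, Or.inr ⟨e, heUx, hyJ, heJ, hecl, hy⟩⟩
      · right
        by_cases heJ : e ∈ J
        · exact N.mem_closure_of_mem' ⟨heJ, heU⟩ (hE ▸ he)
        · have heT : e ∉ N.E \ N.closure J := fun h => heU (Or.inl ⟨0, fun _ => e, rfl, h,
            fun t ht => absurd ht (Nat.not_lt_zero t)⟩)
          have hecl : e ∈ N.closure J := by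
            by_contra hcl
            exact heT ⟨hE ▸ he, hcl⟩
          apply mem_closure_of_forall_mem_closure_sdiff N hNJ hecl
          rintro y ⟨hyJ, hyU⟩
          by_contra hy
          have hyU' : y ∈ ReachX M N J ∪ ReachY M N J := by
            by_contra h
            exact hyU ⟨hyJ, h⟩
          have hyUy : y ∈ ReachY M N J := by
            rcases hyU' with h | h
            · exact absurd hyJ (hUxJ y h)
            · exact h
          obtain ⟨x', hx', hM⟩ := hyUy
          exact heU (Or.inl (hprep e x' ⟨y, ⟨heJ, hyJ, hecl, hy⟩, hM⟩ hx'))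

lemma exists_augment (hMJ : M.Indep J) (hNJ : N.Indep J)
    (hw : ∃ k x, IsWalk (Step M N J) (M.E \ M.closure J) (N.E \ N.closure J) k x) :
    ∃ J' x0, M.Indep J' ∧ N.Indep J' ∧ J ⊆ M.closure J' ∧ x0 ∈ J' ∧ x0 ∈ M.E ∧
      x0 ∉ M.closure J := by
  classical
  obtain ⟨k, x, ⟨hx0, hxk, hstep⟩, hshort⟩ := exists_shortest_walk _ _ _ hw
  have hy : ∀ t, ∃ y, t < k → (NArc N J (x t) y ∧ MArc M J y (x (t + 1))) := by
    intro t
    by_cases ht : t < k
    · obtain ⟨y, h⟩ := hstep t ht
      exact ⟨y, fun _ => h⟩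
    · exact ⟨x 0, fun h => absurd h ht⟩
  choose y hy using hy
  have hNarc : ∀ t < k, NArc N J (x t) (y t) := fun t ht => (hy t ht).1
  have hMarc : ∀ t < k, MArc M J (y t) (x (t + 1)) := fun t ht => (hy t ht).2
  have hMs : ∀ i j, i < j → j < k → x (j + 1) ∈ M.closure (J \ {y i}) := by
    intro i j hij hjk
    by_contra hcon
    exact hshort i (j + 1) (by omega) (by omega)
      ⟨y i, hNarc i (by omega), (hMarc i (by omega)).1, (hMarc j hjk).2.1,
        (hMarc j hjk).2.2.1, hcon⟩
  have hNs : ∀ a b, a < b → b < k → x a ∈ N.closure (J \ {y b}) := by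
    intro a b hab hbk
    by_contra hcon
    exact hshort a (b + 1) (by omega) (by omega)
      ⟨y b, ⟨(hNarc a (by omega)).1, (hNarc b hbk).2.1, (hNarc a (by omega)).2.2.1, hcon⟩,
        hMarc b hbk⟩
  obtain ⟨hKM, hJcl⟩ := triangular_exchange M hMJ k y (fun j => x (j + 1))
    (fun j hj => (hMarc j hj).2.1) (fun j hj => (hMarc j hj).2.2.1)
    (fun j hj => (hMarc j hj).2.2.2) hMs
  obtain ⟨hKN, -⟩ := triangular_exchange N hNJ k (fun i => y (k - 1 - i))
    (fun i => x (k - 1 - i))
    (fun j hj => (hNarc (k - 1 - j) (by omega)).1)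
    (fun j hj => (hNarc (k - 1 - j) (by omega)).2.2.1)
    (fun j hj => (hNarc (k - 1 - j) (by omega)).2.2.2)
    (fun i j hij hjk => hNs (k - 1 - j) (k - 1 - i) (by omega) (by omega))
  refine ⟨(J \ {a | ∃ i < k, a = y i}) ∪ {a | ∃ i, i ≤ k ∧ a = x i}, x 0, ?_, ?_, ?_, ?_,
    hx0.1, hx0.2⟩
  · have hsub : (J \ {a | ∃ i < k, a = y i}) ∪ {a | ∃ j < k, a = x (j + 1)} ⊆ M.closure J := by
      rintro a (⟨haJ, -⟩ | ⟨j, hj, rfl⟩)
      · exact M.subset_closure J hMJ.subset_ground haJ
      · exact (hMarc j hj).2.2.1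
    have hx0K : x 0 ∉ M.closure
        ((J \ {a | ∃ i < k, a = y i}) ∪ {a | ∃ j < k, a = x (j + 1)}) :=
      fun h => hx0.2 (M.closure_subset_closure_of_subset_closure hsub h)
    have hins : M.Indep (insert (x 0)
        ((J \ {a | ∃ i < k, a = y i}) ∪ {a | ∃ j < k, a = x (j + 1)})) := by
      rw [Matroid.insert_indep_iff]
      exact ⟨hKM, fun _ => ⟨hx0.1, hx0K⟩⟩
    apply hins.subset
    rintro a (haJ | ⟨i, hi, rfl⟩)
    · exact Or.inr (Or.inl haJ)
    · rcases Nat.eq_zero_or_pos i with rfl | hpos
      · exact Or.inl rfl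
      · refine Or.inr (Or.inr ⟨i - 1, by omega, ?_⟩)
        have : i - 1 + 1 = i := by omega
        rw [this]
  · have hsub : (J \ {a | ∃ i < k, a = y (k - 1 - i)}) ∪ {a | ∃ j < k, a = x (k - 1 - j)} ⊆
        N.closure J := by
      rintro a (⟨haJ, -⟩ | ⟨j, hj, rfl⟩)
      · exact N.subset_closure J hNJ.subset_ground haJ
      · exact (hNarc (k - 1 - j) (by omega)).2.2.1
    have hxkK : x k ∉ N.closure
        ((J \ {a | ∃ i < k, a = y (k - 1 - i)}) ∪ {a | ∃ j < k, a = x (k - 1 - j)}) :=
      fun h => hxk.2 (N.closure_subset_closure_of_subset_closure hsub h)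
    have hins : N.Indep (insert (x k)
        ((J \ {a | ∃ i < k, a = y (k - 1 - i)}) ∪ {a | ∃ j < k, a = x (k - 1 - j)})) := by
      rw [Matroid.insert_indep_iff]
      exact ⟨hKN, fun _ => ⟨hxk.1, hxkK⟩⟩
    apply hins.subset
    rintro a (⟨haJ, hay⟩ | ⟨i, hi, rfl⟩)
    · refine Or.inr (Or.inl ⟨haJ, ?_⟩)
      rintro ⟨i, hi, rfl⟩
      exact hay ⟨k - 1 - i, by omega, rfl⟩
    · rcases Nat.lt_or_ge i k with hlt | hge
      · refine Or.inr (Or.inr ⟨k - 1 - i, by omega, ?_⟩)
        have : k - 1 - (k - 1 - i) = i := by omega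
        rw [this]
      · have : i = k := by omega
        subst this; exact Or.inl rfl
  · refine hJcl.trans (M.closure_subset_closure ?_)
    rintro a (haJ | ⟨j, hj, rfl⟩)
    · exact Or.inl haJ
    · exact Or.inr ⟨j + 1, by omega, rfl⟩
  · exact Or.inr ⟨0, Nat.zero_le k, rfl⟩

theorem intersection_of_finite_deficiency (hE : M.E = N.E) :
    ∀ (d : ℕ) (J : Set α) (F : Finset α), M.Indep J → N.Indep J → F.card ≤ d →
      (F : Set α) ⊆ M.E → M.E ⊆ M.closure (J ∪ F) → SatisfiesIntersection M N := by
  classical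
  intro d
  induction d with
  | zero =>
    intro J F hMJ hNJ hF hFE hcl
    have hF0 : F = ∅ := Finset.card_eq_zero.mp (Nat.le_zero.mp hF)
    subst hF0
    simp only [Finset.coe_empty, union_empty] at hcl
    apply intersection_of_no_walk M N J hE hMJ hNJ
    rintro ⟨k, x, hx0, -⟩
    exact hx0.2 (hcl hx0.1)
  | succ d ih =>
    intro J F hMJ hNJ hF hFE hcl
    by_cases hw : ∃ k x, IsWalk (Step M N J) (M.E \ M.closure J) (N.E \ N.closure J) k x
    · obtain ⟨J', x0, hMJ', hNJ', hJJ', hx0J', hx0E, hx0⟩ := exists_augment M N J hMJ hNJ hw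
      obtain ⟨f, hfF, hf⟩ := exists_mem_closure_erase M F J x0 (hcl hx0E) hx0
      have hFE' : ((F.erase f : Finset α) : Set α) ⊆ M.E := by
        intro a ha
        exact hFE (Finset.mem_of_mem_erase (Finset.mem_coe.mp ha))
      apply ih J' (F.erase f) hMJ' hNJ' _ hFE'
      · have hJsub : J ⊆ M.closure (J' ∪ (F.erase f : Finset α)) :=
          hJJ'.trans (M.closure_subset_closure subset_union_left)
        have hEsub : ((F.erase f : Finset α) : Set α) ⊆ M.closure (J' ∪ (F.erase f : Finset α)) :=
          fun a ha => M.mem_closure_of_mem' (Or.inr ha) (hFE' ha)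
        have h1 : insert x0 (J ∪ (F.erase f : Finset α)) ⊆
            M.closure (J' ∪ (F.erase f : Finset α)) := by
          rintro a (rfl | haJ | haF)
          · exact M.mem_closure_of_mem' (Or.inl hx0J') hx0E
          · exact hJsub haJ
          · exact hEsub haF
        have hfcl : f ∈ M.closure (J' ∪ (F.erase f : Finset α)) :=
          M.closure_subset_closure_of_subset_closure h1 hf
        have hsub : J ∪ (F : Set α) ⊆ M.closure (J' ∪ (F.erase f : Finset α)) := by
          rintro a (haJ | haF)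
          · exact hJsub haJ
          · by_cases haf : a = f
            · subst haf; exact hfcl
            · exact hEsub (Finset.mem_coe.mpr (Finset.mem_erase.mpr ⟨haf, Finset.mem_coe.mp haF⟩))
        exact hcl.trans (M.closure_subset_closure_of_subset_closure hsub)
      · rw [Finset.card_erase_of_mem hfF]; omega
    · exact intersection_of_no_walk M N J hE hMJ hNJ hw

/-- If `M` and `N` have bases `BM`, `BN` with `BM \ BN` finite, then `(M, N)` satisfies
intersection. -/
theorem intersection_of_bases_sdiff_finite (hE : M.E = N.E) {BM BN : Set α}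
    (hBM : M.IsBase BM) (hBN : N.IsBase BN) (hfin : (BM \ BN).Finite) :
    SatisfiesIntersection M N := by
  classical
  apply intersection_of_finite_deficiency M N hE hfin.toFinset.card (BM ∩ BN) hfin.toFinset
    (hBM.indep.subset inter_subset_left) (hBN.indep.subset inter_subset_right) le_rfl
  · rw [Set.Finite.coe_toFinset]; exact sdiff_subset.trans hBM.subset_ground
  · rw [Set.Finite.coe_toFinset, inter_union_sdiff, hBM.closure_eq]

lemma SatisfiesIntersection.symm {M N : Matroid α} (hE : M.E = N.E)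
    (h : SatisfiesIntersection M N) : SatisfiesIntersection N M := by
  obtain ⟨JM, JN, hd, hM, hN, hcl⟩ := h
  refine ⟨JN, JM, hd.symm, ?_, ?_, ?_⟩
  · rwa [union_comm]
  · rwa [union_comm]
  · rw [union_comm, hcl, hE]

/-- Symmetric form: bases whose difference in either direction is finite. -/
theorem intersection_of_bases_sdiff_finite' {M N : Matroid α} (hE : M.E = N.E) {BM BN : Set α}
    (hBM : M.IsBase BM) (hBN : N.IsBase BN) (hfin : (BM \ BN).Finite ∨ (BN \ BM).Finite) :
    SatisfiesIntersection M N := by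
  rcases hfin with h | h
  · exact intersection_of_bases_sdiff_finite M N hE hBM hBN h
  · exact (intersection_of_bases_sdiff_finite N M hE.symm hBN hBM h).symm hE.symm

end Exchange

end Vale.Agent.Lib.P068
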