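import Vale.Agent.Lib.P068.Extend

namespace Vale.Agent.Lib.P068

open Set Matroid

variable {α : Type*}

section Strong

variable (M N : Matroid α) (J : Set α)

/-- Augmentation along a shortest walk, with full bookkeeping. -/
lemma exists_augment_strong (hMJ : M.Indep J) (hNJ : N.Indep J)
    (hw : ∃ k x, IsWalk (Step M N J) (M.E \ M.closure J) (N.E \ N.closure J) k x) :
    ∃ J' x0 xk, M.Indep J' ∧ N.Indep J' ∧
      x0 ∈ J' ∧ x0 ∈ M.E ∧ x0 ∉ M.closure J ∧ J ⊆ M.closure J' ∧
      J' ⊆ M.closure (insert x0 J) ∧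
      xk ∈ J' ∧ xk ∈ N.E ∧ xk ∉ N.closure J ∧ J ⊆ N.closure J' ∧
      J' ⊆ N.closure (insert xk J) ∧
      (J' \ J).Finite ∧ (J \ J').Finite := by
  classical
  obtain ⟨k, x, ⟨hx0, hxk, hstep⟩, hshort⟩ := exists_shortest_walk _ _ _ hw
  have hy : ∀ t, ∃ y, t < k → (NArc N J (x t) y ∧ MArc M J y (x (t + 1))) := by
    intro t
    by_cases ht : t < k
    · obtain ⟨y, h⟩ := hstep t ht
      exact ⟨y, fun _ => h⟩
    · exact ⟨x 0, fun h => absurd h ht⟩
  choose y hy using hy
  have hNarc : ∀ t < k, NArc N J (x t) (y t) := fun t ht => (hy t ht).1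
  have hMarc : ∀ t < k, MArc M J (y t) (x (t + 1)) := fun t ht => (hy t ht).2
  have hMs : ∀ i j, i < j → j < k → x (j + 1) ∈ M.closure (J \ {y i}) := by
    intro i j hij hjk
    by_contra hcon
    exact hshort i (j + 1) (by omega) (by omega)
      ⟨y i, hNarc i (by omega), (hMarc i (by omega)).1, (hMarc j hjk).2.1,
        (hMarc j hjk).2.2.1, hcon⟩
  have hNs : ∀ a b, a < b → b < k → x a ∈ N.closure (J \ {y b}) := by
    intro a b hab hbk
    by_contra hcon
    exact hshort a (b + 1) (by omega) (by omega)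
      ⟨y b, ⟨(hNarc a (by omega)).1, (hNarc b hbk).2.1, (hNarc a (by omega)).2.2.1, hcon⟩,
        hMarc b hbk⟩
  obtain ⟨hKM, hJcl⟩ := triangular_exchange M hMJ k y (fun j => x (j + 1))
    (fun j hj => (hMarc j hj).2.1) (fun j hj => (hMarc j hj).2.2.1)
    (fun j hj => (hMarc j hj).2.2.2) hMs
  obtain ⟨hKN, hJclN⟩ := triangular_exchange N hNJ k (fun i => y (k - 1 - i))
    (fun i => x (k - 1 - i))
    (fun j hj => (hNarc (k - 1 - j) (by omega)).1)
    (fun j hj => (hNarc (k - 1 - j) (by omega)).2.2.1)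
    (fun j hj => (hNarc (k - 1 - j) (by omega)).2.2.2)
    (fun i j hij hjk => hNs (k - 1 - j) (k - 1 - i) (by omega) (by omega))
  have hNsubset : (J \ {a | ∃ i < k, a = y (k - 1 - i)}) ∪ {a | ∃ j < k, a = x (k - 1 - j)} ⊆
      (J \ {a | ∃ i < k, a = y i}) ∪ {a | ∃ i, i ≤ k ∧ a = x i} := by
    rintro a (⟨haJ, hay⟩ | ⟨j, hj, rfl⟩)
    · refine Or.inl ⟨haJ, ?_⟩
      rintro ⟨i, hi, rfl⟩
      exact hay ⟨k - 1 - i, by omega, by
        have : k - 1 - (k - 1 - i) = i := by omega
        rw [this]⟩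
    · exact Or.inr ⟨k - 1 - j, by omega, rfl⟩
  have hxE : ∀ i, i ≤ k → x i ∈ M.E ∧ x i ∈ N.E := by
    intro i hi
    rcases Nat.eq_zero_or_pos i with rfl | hpos
    · refine ⟨hx0.1, ?_⟩
      rcases Nat.eq_zero_or_pos k with rfl | hk
      · exact hxk.1
      · exact N.closure_subset_ground J (hNarc 0 hk).2.2.1
    · have h1 : x (i - 1 + 1) ∈ M.closure J := (hMarc (i - 1) (by omega)).2.2.1
      have h2 : i - 1 + 1 = i := by omega
      rw [h2] at h1
      refine ⟨M.closure_subset_ground J h1, ?_⟩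
      rcases Nat.lt_or_ge i k with hlt | hge
      · exact N.closure_subset_ground J (hNarc i hlt).2.2.1
      · have : i = k := by omega
        subst this; exact hxk.1
  refine ⟨(J \ {a | ∃ i < k, a = y i}) ∪ {a | ∃ i, i ≤ k ∧ a = x i}, x 0, x k, ?_, ?_, ?_,
    hx0.1, hx0.2, ?_, ?_, ?_, hxk.1, hxk.2, ?_, ?_, ?_, ?_⟩
  · have hsub : (J \ {a | ∃ i < k, a = y i}) ∪ {a | ∃ j < k, a = x (j + 1)} ⊆ M.closure J := by
      rintro a (⟨haJ, -⟩ | ⟨j, hj, rfl⟩)
      · exact M.subset_closure J hMJ.subset_ground haJ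
      · exact (hMarc j hj).2.2.1
    have hx0K : x 0 ∉ M.closure
        ((J \ {a | ∃ i < k, a = y i}) ∪ {a | ∃ j < k, a = x (j + 1)}) :=
      fun h => hx0.2 (M.closure_subset_closure_of_subset_closure hsub h)
    have hins : M.Indep (insert (x 0)
        ((J \ {a | ∃ i < k, a = y i}) ∪ {a | ∃ j < k, a = x (j + 1)})) := by
      rw [Matroid.insert_indep_iff]
      exact ⟨hKM, fun _ => ⟨hx0.1, hx0K⟩⟩
    apply hins.subset
    rintro a (haJ | ⟨i, hi, rfl⟩)
    · exact Or.inr (Or.inl haJ)
    · rcases Nat.eq_zero_or_pos i with rfl | hpos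
      · exact Or.inl rfl
      · refine Or.inr (Or.inr ⟨i - 1, by omega, ?_⟩)
        have : i - 1 + 1 = i := by omega
        rw [this]
  · have hsub : (J \ {a | ∃ i < k, a = y (k - 1 - i)}) ∪ {a | ∃ j < k, a = x (k - 1 - j)} ⊆
        N.closure J := by
      rintro a (⟨haJ, -⟩ | ⟨j, hj, rfl⟩)
      · exact N.subset_closure J hNJ.subset_ground haJ
      · exact (hNarc (k - 1 - j) (by omega)).2.2.1
    have hxkK : x k ∉ N.closure
        ((J \ {a | ∃ i < k, a = y (k - 1 - i)}) ∪ {a | ∃ j < k, a = x (k - 1 - j)}) :=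
      fun h => hxk.2 (N.closure_subset_closure_of_subset_closure hsub h)
    have hins : N.Indep (insert (x k)
        ((J \ {a | ∃ i < k, a = y (k - 1 - i)}) ∪ {a | ∃ j < k, a = x (k - 1 - j)})) := by
      rw [Matroid.insert_indep_iff]
      exact ⟨hKN, fun _ => ⟨hxk.1, hxkK⟩⟩
    apply hins.subset
    rintro a (⟨haJ, hay⟩ | ⟨i, hi, rfl⟩)
    · refine Or.inr (Or.inl ⟨haJ, ?_⟩)
      rintro ⟨i, hi, rfl⟩
      exact hay ⟨k - 1 - i, by omega, rfl⟩
    · rcases Nat.lt_or_ge i k with hlt | hge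
      · refine Or.inr (Or.inr ⟨k - 1 - i, by omega, ?_⟩)
        have : k - 1 - (k - 1 - i) = i := by omega
        rw [this]
      · have : i = k := by omega
        subst this; exact Or.inl rfl
  · exact Or.inr ⟨0, Nat.zero_le k, rfl⟩
  · refine hJcl.trans (M.closure_subset_closure ?_)
    rintro a (haJ | ⟨j, hj, rfl⟩)
    · exact Or.inl haJ
    · exact Or.inr ⟨j + 1, by omega, rfl⟩
  · rintro a (⟨haJ, -⟩ | ⟨i, hi, rfl⟩)
    · exact M.mem_closure_of_mem' (Or.inr haJ) (hMJ.subset_ground haJ)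
    · rcases Nat.eq_zero_or_pos i with rfl | hpos
      · exact M.mem_closure_of_mem' (Or.inl rfl) hx0.1
      · have h1 : x (i - 1 + 1) ∈ M.closure J := (hMarc (i - 1) (by omega)).2.2.1
        have h2 : i - 1 + 1 = i := by omega
        rw [h2] at h1
        exact M.closure_subset_closure (subset_insert _ _) h1
  · exact Or.inr ⟨k, le_rfl, rfl⟩
  · exact hJclN.trans (N.closure_subset_closure hNsubset)
  · rintro a (⟨haJ, -⟩ | ⟨i, hi, rfl⟩)
    · exact N.mem_closure_of_mem' (Or.inr haJ) (hNJ.subset_ground haJ)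
    · rcases Nat.lt_or_ge i k with hlt | hge
      · exact N.closure_subset_closure (subset_insert _ _) (hNarc i hlt).2.2.1
      · have : i = k := by omega
        subst this
        exact N.mem_closure_of_mem' (Or.inl rfl) hxk.1
  · apply ((Finset.range (k + 1)).finite_toSet.image x).subset
    rintro a ⟨(⟨haJ, -⟩ | ⟨i, hi, rfl⟩), haJ'⟩
    · exact absurd haJ haJ'
    · exact ⟨i, Finset.mem_coe.mpr (Finset.mem_range.mpr (by omega)), rfl⟩
  · apply ((Finset.range k).finite_toSet.image y).subset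
    rintro a ⟨haJ, haJ'⟩
    by_contra hcon
    apply haJ'
    refine Or.inl ⟨haJ, ?_⟩
    rintro ⟨i, hi, rfl⟩
    exact hcon ⟨i, Finset.mem_coe.mpr (Finset.mem_range.mpr hi), rfl⟩

end Strong

/-- Two finite sets whose differences have the same cardinality have the same cardinality. -/
lemma ncard_eq_of_encard_sdiff_eq {S T : Set α}
    (h : (S \ T).encard = (T \ S).encard) : S.ncard = T.ncard := by
  have h1 := Set.encard_sdiff_add_encard_inter S T
  have h2 := Set.encard_sdiff_add_encard_inter T S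
  have h3 : S.encard = T.encard := by
    rw [← h1, ← h2, h, Set.inter_comm]
  rw [Set.ncard_def, Set.ncard_def, h3]

/-- Updating a basis of `P` that almost contains `J ∩ P` to one that almost contains `J' ∩ P`,
with exact bookkeeping of the finite defect. -/
lemma exists_isBasis_update (M : Matroid α) {P I J J' : Set α} (hI : M.IsBasis I P)
    (hJI : J ∩ P ⊆ I) (hIJ : (I \ J).Finite) (hJ' : M.Indep (J' ∩ P))
    (hX : (J' \ J).Finite) (hY : (J \ J').Finite) :
    ∃ I', M.IsBasis I' P ∧ J' ∩ P ⊆ I' ∧ (I' \ J').Finite ∧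
      (I' \ J').ncard + ((J' \ J) ∩ P).ncard = (I \ J).ncard + ((J \ J') ∩ P).ncard := by
  have hPE : P ⊆ M.E := hI.subset_ground
  have hIP : I ⊆ P := hI.subset
  obtain ⟨I', hI'S, hJ'I'⟩ := hJ'.subset_isBasis_of_subset
    (subset_union_left : J' ∩ P ⊆ J' ∩ P ∪ I)
    (union_subset (inter_subset_right.trans hPE) (hIP.trans hPE))
  have hI'sub : I' ⊆ J' ∩ P ∪ I := hI'S.subset
  have hI'P : I' ⊆ P := hI'sub.trans (union_subset inter_subset_right hIP)
  have hI'basis : M.IsBasis I' P := by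
    apply hI'S.indep.isBasis_of_subset_of_subset_closure hI'P
    calc P ⊆ M.closure I := hI.subset_closure
      _ ⊆ M.closure (J' ∩ P ∪ I) := M.closure_subset_closure subset_union_right
      _ = M.closure I' := hI'S.closure_eq_closure.symm
  have hcomm : (I \ I').encard = (I' \ I).encard := by
    have h1 : (M ↾ P).IsBase I := (isBase_restrict_iff hPE).mpr hI
    have h2 : (M ↾ P).IsBase I' := (isBase_restrict_iff hPE).mpr hI'basis
    exact h1.encard_sdiff_comm h2
  have hS : I \ (J ∩ J' ∩ P) = ((J \ J') ∩ P) ∪ (I \ J) := by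
    ext a
    constructor
    · rintro ⟨haI, haC⟩
      by_cases haJ : a ∈ J
      · left
        exact ⟨⟨haJ, fun haJ' => haC ⟨⟨haJ, haJ'⟩, hIP haI⟩⟩, hIP haI⟩
      · right; exact ⟨haI, haJ⟩
    · rintro (⟨⟨haJ, haJ'⟩, haP⟩ | ⟨haI, haJ⟩)
      · exact ⟨hJI ⟨haJ, haP⟩, fun h => haJ' h.1.2⟩
      · exact ⟨haI, fun h => haJ h.1.1⟩
  have hT : I' \ (J ∩ J' ∩ P) = ((J' \ J) ∩ P) ∪ (I' \ J') := by
    ext a
    constructor
    · rintro ⟨haI, haC⟩
      by_cases haJ' : a ∈ J'
      · left
        exact ⟨⟨haJ', fun haJ => haC ⟨⟨haJ, haJ'⟩, hI'P haI⟩⟩, hI'P haI⟩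
      · right; exact ⟨haI, haJ'⟩
    · rintro (⟨⟨haJ', haJ⟩, haP⟩ | ⟨haI, haJ'⟩)
      · exact ⟨hJ'I' ⟨haJ', haP⟩, fun h => haJ h.1.1⟩
      · exact ⟨haI, fun h => haJ' h.1.2⟩
  have hCI : J ∩ J' ∩ P ⊆ I := fun a ha => hJI ⟨ha.1.1, ha.2⟩
  have hCI' : J ∩ J' ∩ P ⊆ I' := fun a ha => hJ'I' ⟨ha.1.2, ha.2⟩
  have hd1 : I \ I' = (I \ (J ∩ J' ∩ P)) \ (I' \ (J ∩ J' ∩ P)) := by
    ext a
    constructor
    · rintro ⟨haI, haI'⟩
      exact ⟨⟨haI, fun haC => haI' (hCI' haC)⟩, fun h => haI' h.1⟩
    · rintro ⟨⟨haI, haC⟩, h⟩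
      exact ⟨haI, fun haI' => h ⟨haI', haC⟩⟩
  have hd2 : I' \ I = (I' \ (J ∩ J' ∩ P)) \ (I \ (J ∩ J' ∩ P)) := by
    ext a
    constructor
    · rintro ⟨haI', haI⟩
      exact ⟨⟨haI', fun haC => haI (hCI haC)⟩, fun h => haI h.1⟩
    · rintro ⟨⟨haI', haC⟩, h⟩
      exact ⟨haI', fun haI => h ⟨haI, haC⟩⟩
  have hI'J'fin : (I' \ J').Finite := by
    apply (hIJ.union hY).subset
    rintro a ⟨haI', haJ'⟩
    rcases hI'sub haI' with h | h
    · exact absurd h.1 haJ'
    · by_cases haJ : a ∈ J
      · exact Or.inr ⟨haJ, haJ'⟩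
      · exact Or.inl ⟨h, haJ⟩
  have hcard : (I \ (J ∩ J' ∩ P)).ncard = (I' \ (J ∩ J' ∩ P)).ncard :=
    ncard_eq_of_encard_sdiff_eq (by rw [← hd1, ← hd2]; exact hcomm)
  have hS' : (I \ (J ∩ J' ∩ P)).ncard = ((J \ J') ∩ P).ncard + (I \ J).ncard := by
    rw [hS]
    apply Set.ncard_union_eq _ (hY.subset inter_subset_left) hIJ
    rw [Set.disjoint_left]
    rintro a ⟨⟨haJ, -⟩, -⟩ ⟨-, hnJ⟩
    exact hnJ haJ
  have hT' : (I' \ (J ∩ J' ∩ P)).ncard = ((J' \ J) ∩ P).ncard + (I' \ J').ncard := by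
    rw [hT]
    apply Set.ncard_union_eq _ (hX.subset inter_subset_left) hI'J'fin
    rw [Set.disjoint_left]
    rintro a ⟨⟨haJ', -⟩, -⟩ ⟨-, hnJ'⟩
    exact hnJ' haJ'
  refine ⟨I', hI'basis, hJ'I', hI'J'fin, ?_⟩
  omega

/-- One augmentation lowers the total defect by exactly one. -/
lemma augment_deficiency (M N : Matroid α) {J P IP IQ : Set α}
    (hMJ : M.Indep J) (hNJ : N.Indep J) (hIP : M.IsBasis IP P) (hIQ : N.IsBasis IQ (M.E \ P))
    (hJP : J ∩ P ⊆ IP) (hJQ : J ∩ (M.E \ P) ⊆ IQ) (hfP : (IP \ J).Finite)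
    (hfQ : (IQ \ J).Finite)
    (hw : ∃ k x, IsWalk (Step M N J) (M.E \ M.closure J) (N.E \ N.closure J) k x) :
    ∃ J' IP' IQ', M.Indep J' ∧ N.Indep J' ∧ M.IsBasis IP' P ∧ N.IsBasis IQ' (M.E \ P) ∧
      J' ∩ P ⊆ IP' ∧ J' ∩ (M.E \ P) ⊆ IQ' ∧ (IP' \ J').Finite ∧ (IQ' \ J').Finite ∧
      (IP' \ J').ncard + (IQ' \ J').ncard + 1 = (IP \ J).ncard + (IQ \ J).ncard := by
  obtain ⟨J', x0, xk, hMJ', hNJ', hx0J', hx0E, hx0, hJcl, hJ'cl, -, -, -, -, -, hXfin, hYfin⟩ :=
    exists_augment_strong M N J hMJ hNJ hw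
  have hx0J : x0 ∉ J := fun h => hx0 (M.subset_closure J hMJ.subset_ground h)
  -- |J' \ J| = |J \ J'| + 1
  have hXY : (J' \ J).ncard = (J \ J').ncard + 1 := by
    have h1 : (M ↾ M.closure J').IsBase J' :=
      (isBase_restrict_iff (M.closure_subset_ground _)).mpr hMJ'.isBasis_closure
    have hins : M.Indep (insert x0 J) := by
      rw [Matroid.insert_indep_iff]
      exact ⟨hMJ, fun _ => ⟨hx0E, hx0⟩⟩
    have h2 : (M ↾ M.closure J').IsBase (insert x0 J) := by
      rw [isBase_restrict_iff (M.closure_subset_ground _)]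
      apply hins.isBasis_of_subset_of_subset_closure
      · exact insert_subset (M.subset_closure J' hMJ'.subset_ground hx0J') hJcl
      · exact M.closure_subset_closure_of_subset_closure hJ'cl
    have hc := h1.encard_sdiff_comm h2
    have e1 : J' \ insert x0 J = (J' \ J) \ {x0} := by
      ext a
      simp only [mem_sdiff, mem_insert_iff, mem_singleton_iff]
      tauto
    have e2 : insert x0 J \ J' = J \ J' := by
      ext a
      simp only [mem_sdiff, mem_insert_iff]
      constructor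
      · rintro ⟨rfl | ha, hna⟩
        · exact absurd hx0J' hna
        · exact ⟨ha, hna⟩
      · rintro ⟨ha, hna⟩
        exact ⟨Or.inr ha, hna⟩
    rw [e1, e2] at hc
    have h3 : ((J' \ J) \ {x0}).ncard = (J \ J').ncard := by
      rw [Set.ncard_def, Set.ncard_def, hc]
    have hx0X : x0 ∈ J' \ J := ⟨hx0J', hx0J⟩
    have h4 := Set.ncard_sdiff_singleton_add_one hx0X hXfin
    omega
  obtain ⟨IP', hIP', hJ'P, hfP', hcP⟩ :=
    exists_isBasis_update M hIP hJP hfP (hMJ'.subset inter_subset_left) hXfin hYfin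
  obtain ⟨IQ', hIQ', hJ'Q, hfQ', hcQ⟩ :=
    exists_isBasis_update N hIQ hJQ hfQ (hNJ'.subset inter_subset_left) hXfin hYfin
  have hsplit : ∀ Z : Set α, Z ⊆ M.E → Z.Finite →
      Z.ncard = (Z ∩ P).ncard + (Z ∩ (M.E \ P)).ncard := by
    intro Z hZ hZfin
    have hZeq : Z = (Z ∩ P) ∪ (Z ∩ (M.E \ P)) := by
      ext a
      constructor
      · intro ha
        by_cases haP : a ∈ P
        · exact Or.inl ⟨ha, haP⟩
        · exact Or.inr ⟨ha, hZ ha, haP⟩
      · rintro (⟨ha, -⟩ | ⟨ha, -⟩) <;> exact ha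
    conv_lhs => rw [hZeq]
    apply Set.ncard_union_eq _ (hZfin.subset inter_subset_left) (hZfin.subset inter_subset_left)
    rw [Set.disjoint_left]
    rintro a ⟨-, haP⟩ ⟨-, -, hnP⟩
    exact hnP haP
  have hX' := hsplit (J' \ J) (sdiff_subset.trans hMJ'.subset_ground) hXfin
  have hY' := hsplit (J \ J') (sdiff_subset.trans hMJ.subset_ground) hYfin
  refine ⟨J', IP', IQ', hMJ', hNJ', hIP', hIQ', hJ'P, hJ'Q, hfP', hfQ', ?_⟩
  omega

/-- **Two-sided finite deficiency, basis form.** If a common independent set `J`, a set `P`,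
an `M`-basis `IP ⊇ J ∩ P` of `P` and an `N`-basis `IQ ⊇ J \ P` of the complement of `P` exist
with `IP \ J` and `IQ \ J` finite, then `(M, N)` satisfies intersection. -/
theorem intersection_of_two_sided_deficiency (M N : Matroid α) (hE : M.E = N.E) :
    ∀ (n : ℕ) (J P IP IQ : Set α), M.Indep J → N.Indep J → M.IsBasis IP P →
      N.IsBasis IQ (M.E \ P) → J ∩ P ⊆ IP → J ∩ (M.E \ P) ⊆ IQ → (IP \ J).Finite →
      (IQ \ J).Finite → (IP \ J).ncard + (IQ \ J).ncard ≤ n → SatisfiesIntersection M N := by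
  intro n
  induction n with
  | zero =>
    intro J P IP IQ hMJ hNJ hIP hIQ hJP hJQ hfP hfQ hn
    by_cases hw : ∃ k x, IsWalk (Step M N J) (M.E \ M.closure J) (N.E \ N.closure J) k x
    · obtain ⟨J', IP', IQ', -, -, -, -, -, -, -, -, hc⟩ :=
        augment_deficiency M N hMJ hNJ hIP hIQ hJP hJQ hfP hfQ hw
      omega
    · exact intersection_of_no_walk M N J hE hMJ hNJ hw
  | succ n ih =>
    intro J P IP IQ hMJ hNJ hIP hIQ hJP hJQ hfP hfQ hn
    by_cases hw : ∃ k x, IsWalk (Step M N J) (M.E \ M.closure J) (N.E \ N.closure J) k x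
    · obtain ⟨J', IP', IQ', hMJ', hNJ', hIP', hIQ', hJ'P, hJ'Q, hfP', hfQ', hc⟩ :=
        augment_deficiency M N hMJ hNJ hIP hIQ hJP hJQ hfP hfQ hw
      exact ih J' P IP' IQ' hMJ' hNJ' hIP' hIQ' hJ'P hJ'Q hfP' hfQ' (by omega)
    · exact intersection_of_no_walk M N J hE hMJ hNJ hw

/-- An independent set inside the closure of `I ∪ G`, `G` finite, exceeds `I` by finitely many
elements. -/
lemma finite_sdiff_of_subset_closure_union (M : Matroid α) {I I' G : Set α} (hG : G.Finite)
    (hI' : M.Indep I') (hII' : I ⊆ I') (hcl : I' ⊆ M.closure (I ∪ G)) : (I' \ I).Finite := by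
  have hI : M.Indep I := hI'.subset hII'
  have hIS : I ⊆ (I ∪ G) ∩ M.E := fun a ha => ⟨Or.inl ha, hI.subset_ground ha⟩
  obtain ⟨I₂, hI₂, hII₂⟩ := hI.subset_isBasis_of_subset hIS inter_subset_right
  have hI₂G : I₂ \ I ⊆ G := by
    rintro a ⟨ha2, haI⟩
    rcases (hI₂.subset ha2).1 with h | h
    · exact absurd h haI
    · exact h
  have hcl' : I' ⊆ M.closure ((I ∪ G) ∩ M.E) := by rw [closure_inter_ground]; exact hcl
  have hI₂X : M.IsBasis I₂ (M.closure ((I ∪ G) ∩ M.E)) := hI₂.isBasis_closure_right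
  obtain ⟨I₃, hI₃, hI'I₃⟩ := hI'.subset_isBasis_of_subset hcl' (M.closure_subset_ground _)
  have hc : (I₃ \ I₂).encard = (I₂ \ I₃).encard := by
    have h1 : (M ↾ M.closure ((I ∪ G) ∩ M.E)).IsBase I₃ :=
      (isBase_restrict_iff (M.closure_subset_ground _)).mpr hI₃
    have h2 : (M ↾ M.closure ((I ∪ G) ∩ M.E)).IsBase I₂ :=
      (isBase_restrict_iff (M.closure_subset_ground _)).mpr hI₂X
    exact h1.encard_sdiff_comm h2
  have hfin1 : (I₂ \ I₃).Finite := by
    apply hG.subset
    rintro a ⟨ha2, ha3⟩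
    exact hI₂G ⟨ha2, fun haI => ha3 (hI'I₃ (hII' haI))⟩
  have hfin2 : (I₃ \ I₂).Finite := by
    rw [← Set.encard_lt_top_iff, hc, Set.encard_lt_top_iff]
    exact hfin1
  apply (hfin2.union (hG.subset hI₂G)).subset
  rintro a ⟨haI', haI⟩
  by_cases ha2 : a ∈ I₂
  · exact Or.inr ⟨ha2, haI⟩
  · exact Or.inl ⟨hI'I₃ haI', ha2⟩

/-- **Almost-solutions can be repaired.** If `A ∪ B` is a common independent set with `A`, `B`
disjoint, and the `M`-closure of `A ∪ G_M` together with the `N`-closure of `B ∪ G_N` covers the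
ground set for some finite sets `G_M`, `G_N`, then `(M, N)` satisfies intersection. -/
theorem intersection_of_almost_solution (M N : Matroid α) (hE : M.E = N.E) {A B GM GN : Set α}
    (hd : Disjoint A B) (hM : M.Indep (A ∪ B)) (hN : N.Indep (A ∪ B)) (hGM : GM.Finite)
    (hGN : GN.Finite) (hcov : M.E ⊆ M.closure (A ∪ GM) ∪ N.closure (B ∪ GN)) :
    SatisfiesIntersection M N := by
  have hAE : A ⊆ M.E := subset_union_left.trans hM.subset_ground
  have hPE : M.closure (A ∪ GM) ⊆ M.E := M.closure_subset_ground _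
  have hAP : A ⊆ M.closure (A ∪ GM) := fun a ha => M.mem_closure_of_mem' (Or.inl ha) (hAE ha)
  -- the `M`-side basis
  obtain ⟨IP, hIP, hJIP⟩ := (hM.subset (inter_subset_left : (A ∪ B) ∩ M.closure (A ∪ GM) ⊆ A ∪ B)).subset_isBasis_of_subset
    (inter_subset_right : (A ∪ B) ∩ M.closure (A ∪ GM) ⊆ M.closure (A ∪ GM)) hPE
  have hfP : (IP \ (A ∪ B)).Finite := by
    have h1 : (IP \ ((A ∪ B) ∩ M.closure (A ∪ GM))).Finite := by
      apply finite_sdiff_of_subset_closure_union M hGM hIP.indep hJIP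
      refine hIP.subset.trans (M.closure_subset_closure ?_)
      rintro a (ha | ha)
      · exact Or.inl ⟨Or.inl ha, hAP ha⟩
      · exact Or.inr ha
    apply h1.subset
    rintro a ⟨haI, haJ⟩
    exact ⟨haI, fun h => haJ h.1⟩
  -- `B ∩ P` is finite
  have hBP : (B ∩ M.closure (A ∪ GM)).Finite := by
    have h1 : ((A ∪ B ∩ M.closure (A ∪ GM)) \ A).Finite := by
      apply finite_sdiff_of_subset_closure_union M hGM
        (hM.subset (union_subset_union_right A inter_subset_left)) subset_union_left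
      rintro a (ha | ha)
      · exact hAP ha
      · exact ha.2
    apply h1.subset
    rintro a ⟨haB, haP⟩
    exact ⟨Or.inr ⟨haB, haP⟩, fun haA => Set.disjoint_left.mp hd haA haB⟩
  -- the `N`-side basis
  have hQE : M.E \ M.closure (A ∪ GM) ⊆ N.E := hE ▸ sdiff_subset
  obtain ⟨IQ, hIQ, hJIQ⟩ := (hN.subset (inter_subset_left :
      (A ∪ B) ∩ (M.E \ M.closure (A ∪ GM)) ⊆ A ∪ B)).subset_isBasis_of_subset
    (inter_subset_right : (A ∪ B) ∩ (M.E \ M.closure (A ∪ GM)) ⊆ M.E \ M.closure (A ∪ GM)) hQE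
  have hfQ : (IQ \ (A ∪ B)).Finite := by
    have h1 : (IQ \ ((A ∪ B) ∩ (M.E \ M.closure (A ∪ GM)))).Finite := by
      apply finite_sdiff_of_subset_closure_union N (hGN.union hBP) hIQ.indep hJIQ
      intro e he
      have heQ := hIQ.subset he
      have h2 : e ∈ N.closure (B ∪ GN) := by
        rcases hcov heQ.1 with h | h
        · exact absurd h heQ.2
        · exact h
      refine N.closure_subset_closure ?_ h2
      rintro a (ha | ha)
      · by_cases haP : a ∈ M.closure (A ∪ GM)
        · exact Or.inr (Or.inr ⟨ha, haP⟩)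
        · exact Or.inl ⟨Or.inr ha, hM.subset_ground (Or.inr ha), haP⟩
      · exact Or.inr (Or.inl ha)
    apply h1.subset
    rintro a ⟨haI, haJ⟩
    exact ⟨haI, fun h => haJ h.1⟩
  exact intersection_of_two_sided_deficiency M N hE _ (A ∪ B) (M.closure (A ∪ GM)) IP IQ hM hN
    hIP hIQ hJIP hJIQ hfP hfQ le_rfl

/-- **Deleting a set of finite rank.** If `(M ↾ E₀, N ↾ E₀)` satisfies intersection and the
restriction of `N` to the complement of `E₀` has finite rank, then `(M, N)` satisfies
intersection. -/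
theorem intersection_of_restrict_rankFinite (M N : Matroid α) (hE : M.E = N.E) {E₀ : Set α}
    (hE₀ : E₀ ⊆ M.E) [(N ↾ (M.E \ E₀)).RankFinite]
    (h : SatisfiesIntersection (M ↾ E₀) (N ↾ E₀)) : SatisfiesIntersection M N := by
  obtain ⟨JM, JN, hdis, hMind, hNind, hcl⟩ := h
  have hJsub : JM ∪ JN ⊆ E₀ := hMind.subset_ground
  have hJMsub : JM ⊆ E₀ := subset_union_left.trans hJsub
  have hJNsub : JN ⊆ E₀ := subset_union_right.trans hJsub
  have hE₀N : E₀ ⊆ N.E := hE ▸ hE₀
  rw [restrict_closure_eq _ hJMsub hE₀, restrict_closure_eq _ hJNsub hE₀N, restrict_ground_eq]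
    at hcl
  obtain ⟨F₁, hF₁⟩ := (N ↾ (M.E \ E₀)).exists_isBase
  have hF₁sub : F₁ ⊆ M.E \ E₀ := hF₁.subset_ground
  have hE₁N : M.E \ E₀ ⊆ N.E := hE ▸ sdiff_subset
  apply intersection_of_almost_solution M N hE hdis hMind.of_restrict hNind.of_restrict
    Set.finite_empty hF₁.finite
  intro e he
  by_cases he0 : e ∈ E₀
  · have h1 : e ∈ M.closure JM ∩ E₀ ∪ N.closure JN ∩ E₀ := by rw [hcl]; exact he0
    rcases h1 with h | h
    · left
      rw [union_empty]; exact h.1
    · right
      exact N.closure_subset_closure subset_union_left h.1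
  · right
    have h2 : e ∈ (N ↾ (M.E \ E₀)).closure F₁ := by
      rw [hF₁.closure_eq, restrict_ground_eq]; exact ⟨he, he0⟩
    rw [restrict_closure_eq _ hF₁sub hE₁N] at h2
    exact N.closure_subset_closure subset_union_right h2.1

/-- **Duality.** If `(M, N)` satisfies intersection then so does the pair of duals. -/
theorem SatisfiesIntersection.dual {M N : Matroid α} (hE : M.E = N.E)
    (h : SatisfiesIntersection M N) : SatisfiesIntersection M✶ N✶ := by
  obtain ⟨JM, JN, hdis, hMind, hNind, hcl⟩ := h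
  have hMJM : M.Indep JM := hMind.subset subset_union_left
  have hNJN : N.Indep JN := hNind.subset subset_union_right
  have hPE : M.closure JM ⊆ M.E := M.closure_subset_ground _
  have hJMP : M.IsBasis JM (M.closure JM) := hMJM.isBasis_closure
  have hJNsub : JN ⊆ M.E \ M.closure JM := by
    intro a ha
    refine ⟨hMind.subset_ground (Or.inr ha), fun haP => ?_⟩
    exact Set.disjoint_left.mp (disjoint_closure_of_indep_union hMind hdis) haP ha
  have hQcl : M.E \ M.closure JM ⊆ N.closure JN := by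
    rintro e ⟨he, heP⟩
    have h1 : e ∈ M.closure JM ∪ N.closure JN := by rw [hcl]; exact he
    rcases h1 with h | h
    · exact absurd h heP
    · exact h
  have hJNQ : N.IsBasis JN (M.E \ M.closure JM) :=
    hNJN.isBasis_of_subset_of_subset_closure hJNsub hQcl
  have hdisQ : Disjoint (M.E \ M.closure JM) JM := by
    rw [Set.disjoint_left]
    rintro a ⟨-, haP⟩ haJ
    exact haP (M.subset_closure JM hMJM.subset_ground haJ)
  have hdisP : Disjoint (M.closure JM) JN := by
    rw [Set.disjoint_left]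
    intro a haP haJ
    exact (hJNsub haJ).2 haP
  have hJMc : (N ／ (M.E \ M.closure JM)).Indep JM := by
    rw [hJNQ.contract_indep_iff]
    exact ⟨hNind, hdisQ⟩
  have hJNc : (M ／ M.closure JM).Indep JN := by
    rw [hJMP.contract_indep_iff]
    exact ⟨by rw [union_comm]; exact hMind, hdisP⟩
  have hcancel : M.E \ (M.E \ M.closure JM) = M.closure JM := sdiff_sdiff_cancel_left hPE
  -- the `M`-side of the primal solution gives the `N✶`-side of the dual solution
  have hB1 : (M✶ ／ (M.E \ M.closure JM)).IsBase (M.closure JM \ JM) := by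
    have h1 : (M ↾ M.closure JM).IsBase JM := (isBase_restrict_iff hPE).mpr hJMP
    have h2 := h1.compl_isBase_dual
    rw [restrict_ground_eq, ← delete_compl hPE, dual_delete] at h2
    exact h2
  have hS1 : (N✶ ＼ (M.E \ M.closure JM)).Spanning (M.closure JM \ JM) := by
    have h1 : (N ／ (M.E \ M.closure JM))✶.Coindep JM := by
      rw [coindep_def, dual_dual]; exact hJMc
    have h2 := h1.compl_spanning
    rw [dual_ground, contract_ground, ← hE, hcancel, dual_contract] at h2
    exact h2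
  obtain ⟨JN', hJN'base, hJN'sub⟩ := hS1.exists_isBase_subset
  have hJN'c : (M✶ ／ (M.E \ M.closure JM)).Indep JN' := hB1.indep.subset hJN'sub
  have hJN'basis : N✶.IsBasis JN' (M.closure JM) := by
    have h1 : N✶ ＼ (M.E \ M.closure JM) = N✶ ↾ M.closure JM := by
      rw [delete_eq_restrict, dual_ground, ← hE, hcancel]
    rw [h1, isBase_restrict_iff (by rw [dual_ground, ← hE]; exact hPE)] at hJN'base
    exact hJN'base
  -- the `N`-side of the primal solution gives the `M✶`-side of the dual solution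
  have hB2 : (N✶ ／ M.closure JM).IsBase ((M.E \ M.closure JM) \ JN) := by
    have h1 : (N ↾ (M.E \ M.closure JM)).IsBase JN :=
      (isBase_restrict_iff (hE ▸ sdiff_subset)).mpr hJNQ
    have h2 := h1.compl_isBase_dual
    have h3 : N ↾ (M.E \ M.closure JM) = N ＼ M.closure JM := by
      rw [delete_eq_restrict, hE]
    rw [restrict_ground_eq, h3, dual_delete] at h2
    exact h2
  have hS2 : (M✶ ＼ M.closure JM).Spanning ((M.E \ M.closure JM) \ JN) := by
    have h1 : (M ／ M.closure JM)✶.Coindep JN := by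
      rw [coindep_def, dual_dual]; exact hJNc
    have h2 := h1.compl_spanning
    rw [dual_ground, contract_ground, dual_contract] at h2
    exact h2
  obtain ⟨JM', hJM'base, hJM'sub⟩ := hS2.exists_isBase_subset
  have hJM'c : (N✶ ／ M.closure JM).Indep JM' := hB2.indep.subset hJM'sub
  have hJM'basis : M✶.IsBasis JM' (M.E \ M.closure JM) := by
    have h1 : M✶ ＼ M.closure JM = M✶ ↾ (M.E \ M.closure JM) := by
      rw [delete_eq_restrict, dual_ground]
    rw [h1, isBase_restrict_iff (by rw [dual_ground]; exact sdiff_subset)] at hJM'base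
    exact hJM'base
  refine ⟨JM', JN', ?_, ?_, ?_, ?_⟩
  · rw [Set.disjoint_left]
    intro a haM haN
    exact (hJM'sub haM).1.2 (hJN'sub haN).1
  · have h1 := (hJM'basis.contract_indep_iff.mp hJN'c).1
    rw [union_comm]; exact h1
  · exact (hJN'basis.contract_indep_iff.mp hJM'c).1
  · apply subset_antisymm
    · apply union_subset (M✶.closure_subset_ground _)
      have h1 := N✶.closure_subset_ground JN'
      rw [dual_ground, ← hE] at h1
      rw [dual_ground]; exact h1
    · intro e he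
      rw [dual_ground] at he
      by_cases heP : e ∈ M.closure JM
      · exact Or.inr (hJN'basis.subset_closure heP)
      · exact Or.inl (hJM'basis.subset_closure ⟨he, heP⟩)

/-- **Contracting a set of finite corank.** If `(M ／ E₁, N ／ E₁)` satisfies intersection and
the restriction of `N✶` to `E₁` has finite rank, then `(M, N)` satisfies intersection. -/
theorem intersection_of_contract_rankFinite (M N : Matroid α) (hE : M.E = N.E) {E₁ : Set α}
    (hE₁ : E₁ ⊆ M.E) [hfin : (N✶ ↾ E₁).RankFinite]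
    (h : SatisfiesIntersection (M ／ E₁) (N ／ E₁)) : SatisfiesIntersection M N := by
  have h1 := h.dual (by rw [contract_ground, contract_ground, hE])
  rw [dual_contract, dual_contract, delete_eq_restrict, delete_eq_restrict, dual_ground,
    dual_ground, ← hE] at h1
  have hcancel : M✶.E \ (M.E \ E₁) = E₁ := by
    rw [dual_ground]; exact sdiff_sdiff_cancel_left hE₁
  have : (N✶ ↾ (M✶.E \ (M.E \ E₁))).RankFinite := by rw [hcancel]; exact hfin
  have h2 := intersection_of_restrict_rankFinite M✶ N✶ (by rw [dual_ground, dual_ground, hE])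
    (by rw [dual_ground]; exact sdiff_subset) h1
  have h3 := h2.dual (by rw [dual_ground, dual_ground, hE])
  rw [dual_dual, dual_dual] at h3
  exact h3

/-- From the pair with a finite set deleted to the whole pair. -/
theorem intersection_of_delete_finite (M N : Matroid α) (hE : M.E = N.E) {F : Set α}
    (hF : F.Finite) (h : SatisfiesIntersection (M ＼ F) (N ＼ F)) : SatisfiesIntersection M N := by
  rw [delete_eq_restrict, delete_eq_restrict, ← hE] at h
  have hfin : (M.E \ (M.E \ F)).Finite := hF.subset (fun a ha => by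
    by_contra haF
    exact ha.2 ⟨ha.1, haF⟩)
  have : (N ↾ (M.E \ (M.E \ F))).Finite := restrict_finite hfin
  exact intersection_of_restrict_rankFinite M N hE sdiff_subset h

/-- From the pair with a finite set contracted to the whole pair. -/
theorem intersection_of_contract_finite (M N : Matroid α) (hE : M.E = N.E) {F : Set α}
    (hF : F.Finite) (h : SatisfiesIntersection (M ／ F) (N ／ F)) : SatisfiesIntersection M N := by
  have h1 : M ／ (F ∩ M.E) = M ／ F := M.contract_inter_ground_eq F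
  have h2 : N ／ (F ∩ M.E) = N ／ F := by rw [hE]; exact N.contract_inter_ground_eq F
  rw [← h1, ← h2] at h
  have : (N✶ ↾ (F ∩ M.E)).Finite := restrict_finite (hF.subset inter_subset_left)
  exact intersection_of_contract_rankFinite M N hE inter_subset_right h

/-- From the whole pair to the pair with a finite set deleted. -/
theorem SatisfiesIntersection.delete_finite {M N : Matroid α} (hE : M.E = N.E) {F : Set α}
    (hF : F.Finite) (h : SatisfiesIntersection M N) : SatisfiesIntersection (M ＼ F) (N ＼ F) := by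
  obtain ⟨JM, JN, hdis, hMind, hNind, hcl⟩ := h
  have hMJM : M.Indep JM := hMind.subset subset_union_left
  have hNJN : N.Indep JN := hNind.subset subset_union_right
  -- finite sets restoring the closures after deleting `F`
  have key : ∀ (K : Matroid α) (J : Set α), K.Indep J → ∃ G : Set α, G.Finite ∧
      K.closure J \ F ⊆ (K ＼ F).closure ((J \ F) ∪ G) := by
    intro K J hJ
    have hAX : J \ F ⊆ K.closure J \ F := fun a ha =>
      ⟨K.subset_closure J hJ.subset_ground ha.1, ha.2⟩
    obtain ⟨I, hI, hAI⟩ := (hJ.subset (sdiff_subset : J \ F ⊆ J)).subset_isBasis_of_subset hAX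
      (sdiff_subset.trans (K.closure_subset_ground J))
    refine ⟨I \ (J \ F), ?_, ?_⟩
    · apply finite_sdiff_of_subset_closure_union K (hF.subset (inter_subset_right : J ∩ F ⊆ F))
        hI.indep hAI
      refine (hI.subset.trans sdiff_subset).trans (K.closure_subset_closure ?_)
      intro a ha
      by_cases haF : a ∈ F
      · exact Or.inr ⟨ha, haF⟩
      · exact Or.inl ⟨ha, haF⟩
    · have hunion : (J \ F) ∪ (I \ (J \ F)) = I := union_sdiff_cancel hAI
      have hIF : Disjoint I F := by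
        rw [Set.disjoint_left]
        intro a ha haF
        exact (hI.subset ha).2 haF
      rw [hunion, delete_closure_eq_of_disjoint K hIF]
      intro e he
      exact ⟨hI.subset_closure he, he.2⟩
  obtain ⟨GM, hGM, hGMcl⟩ := key M JM hMJM
  obtain ⟨GN, hGN, hGNcl⟩ := key N JN hNJN
  have hEF : (M ＼ F).E = (N ＼ F).E := by rw [delete_ground, delete_ground, hE]
  have hdisF : Disjoint (JM \ F ∪ JN \ F) F := by
    rw [Set.disjoint_left]
    rintro a (ha | ha) haF
    · exact ha.2 haF
    · exact ha.2 haF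
  have hsubJ : JM \ F ∪ JN \ F ⊆ JM ∪ JN := union_subset_union sdiff_subset sdiff_subset
  apply intersection_of_almost_solution (M ＼ F) (N ＼ F) hEF (A := JM \ F) (B := JN \ F)
    (GM := GM) (GN := GN)
  · exact hdis.mono sdiff_subset sdiff_subset
  · rw [delete_indep_iff]
    exact ⟨hMind.subset hsubJ, hdisF⟩
  · rw [delete_indep_iff]
    exact ⟨hNind.subset hsubJ, hdisF⟩
  · exact hGM
  · exact hGN
  · rintro e ⟨he, heF⟩
    have h1 : e ∈ M.closure JM ∪ N.closure JN := by rw [hcl]; exact he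
    rcases h1 with h | h
    · exact Or.inl (hGMcl ⟨h, heF⟩)
    · exact Or.inr (hGNcl ⟨h, heF⟩)

/-- From the whole pair to the pair with a finite set contracted. -/
theorem SatisfiesIntersection.contract_finite {M N : Matroid α} (hE : M.E = N.E) {F : Set α}
    (hF : F.Finite) (h : SatisfiesIntersection M N) : SatisfiesIntersection (M ／ F) (N ／ F) := by
  have h1 := h.dual hE
  have h2 := h1.delete_finite (by rw [dual_ground, dual_ground, hE]) hF
  have h3 := h2.dual (by rw [delete_ground, delete_ground, dual_ground, dual_ground, hE])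
  rw [dual_delete_dual, dual_delete_dual] at h3
  exact h3

/-- **Finite-minor invariance.** Deleting a finite set from both matroids, or contracting a
finite set in both matroids, does not change whether the pair satisfies intersection. -/
theorem satisfiesIntersection_delete_finite_iff (M N : Matroid α) (hE : M.E = N.E) {F : Set α}
    (hF : F.Finite) : SatisfiesIntersection (M ＼ F) (N ＼ F) ↔ SatisfiesIntersection M N :=
  ⟨intersection_of_delete_finite M N hE hF, fun h => h.delete_finite hE hF⟩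

theorem satisfiesIntersection_contract_finite_iff (M N : Matroid α) (hE : M.E = N.E) {F : Set α}
    (hF : F.Finite) : SatisfiesIntersection (M ／ F) (N ／ F) ↔ SatisfiesIntersection M N :=
  ⟨intersection_of_contract_finite M N hE hF, fun h => h.contract_finite hE hF⟩

/-- Deleting a set that has finite rank in `N` or in `M`. -/
theorem intersection_of_restrict_rankFinite' (M N : Matroid α) (hE : M.E = N.E) {E₀ : Set α}
    (hE₀ : E₀ ⊆ M.E) (hfin : (N ↾ (M.E \ E₀)).RankFinite ∨ (M ↾ (M.E \ E₀)).RankFinite)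
    (h : SatisfiesIntersection (M ↾ E₀) (N ↾ E₀)) : SatisfiesIntersection M N := by
  rcases hfin with hN | hM
  · exact intersection_of_restrict_rankFinite M N hE hE₀ h
  · have h1 := h.symm (by rw [restrict_ground_eq, restrict_ground_eq])
    have : (M ↾ (N.E \ E₀)).RankFinite := by rw [← hE]; exact hM
    exact (intersection_of_restrict_rankFinite N M hE.symm (hE ▸ hE₀) h1).symm hE.symm

/-- Contracting a set that has finite corank in `N` or in `M`. -/
theorem intersection_of_contract_rankFinite' (M N : Matroid α) (hE : M.E = N.E) {E₁ : Set α}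
    (hE₁ : E₁ ⊆ M.E) (hfin : (N✶ ↾ E₁).RankFinite ∨ (M✶ ↾ E₁).RankFinite)
    (h : SatisfiesIntersection (M ／ E₁) (N ／ E₁)) : SatisfiesIntersection M N := by
  rcases hfin with hN | hM
  · exact intersection_of_contract_rankFinite M N hE hE₁ h
  · have h1 := h.symm (by rw [contract_ground, contract_ground, hE])
    exact (intersection_of_contract_rankFinite N M hE.symm (hE ▸ hE₁) h1).symm hE.symm

end Vale.Agent.Lib.P068
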