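import Vale.Agent.Lib.P068.SumUniform

namespace Vale.Agent.Lib.P068

open Set Matroid

variable {α : Type*}

lemma closure_subset_disjointSum_left (N₀ F : Matroid α) (hd : Disjoint N₀.E F.E) {X : Set α}
    (hX : X ⊆ N₀.E) : N₀.closure X ⊆ (N₀.disjointSum F hd).closure X := by
  have hres := disjointSum_restrict_left N₀ F hd
  have h : N₀.closure X = (N₀.disjointSum F hd).closure X ∩ N₀.E := by
    conv_lhs => rw [← hres]
    rw [restrict_closure_eq _ hX (by rw [disjointSum_ground_eq]; exact subset_union_left)]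
  rw [h]; exact inter_subset_left

lemma closure_subset_disjointSum_right (N₀ F : Matroid α) (hd : Disjoint N₀.E F.E) {X : Set α}
    (hX : X ⊆ F.E) : F.closure X ⊆ (N₀.disjointSum F hd).closure X := by
  have hres := disjointSum_restrict_right N₀ F hd
  have h : F.closure X = (N₀.disjointSum F hd).closure X ∩ F.E := by
    conv_lhs => rw [← hres]
    rw [restrict_closure_eq _ hX (by rw [disjointSum_ground_eq]; exact subset_union_right)]
  rw [h]; exact inter_subset_left

/-- If `A ∪ B` is independent and `A`, `B` are disjoint then the closure of `A` misses `B`. -/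
lemma disjoint_closure_of_indep_union {M : Matroid α} {A B : Set α} (h : M.Indep (A ∪ B))
    (hd : Disjoint A B) : Disjoint (M.closure A) B := by
  rw [Set.disjoint_left]
  intro a haA haB
  have haA' : a ∉ A := fun h' => Set.disjoint_left.mp hd h' haB
  have h1 := h.notMem_closure_sdiff_of_mem (Or.inr haB : a ∈ A ∪ B)
  apply h1
  refine M.closure_subset_closure ?_ haA
  intro x hx
  refine ⟨Or.inl hx, fun hxa => haA' ?_⟩
  rw [Set.mem_singleton_iff] at hxa
  rw [← hxa]; exact hx

/-- **Finite-rank extension.** If `N = N₀ ⊕ F` with `F` of finite rank and the pair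
`(M ↾ N₀.E, N₀)` satisfies intersection, then so does `(M, N)`. -/
theorem intersection_sum_rankFinite (M N₀ F : Matroid α) (hd : Disjoint N₀.E F.E)
    (hE : M.E = N₀.E ∪ F.E) [F.RankFinite]
    (h : SatisfiesIntersection (M ↾ N₀.E) N₀) :
    SatisfiesIntersection M (N₀.disjointSum F hd) := by
  classical
  obtain ⟨JM, JN, hdis, hMind, hNind, hcl⟩ := h
  obtain ⟨N, hNdef⟩ : ∃ N, N = N₀.disjointSum F hd := ⟨_, rfl⟩
  rw [← hNdef]
  have hNE : N.E = M.E := by rw [hNdef, disjointSum_ground_eq, hE]
  have hE₀ : N₀.E ⊆ M.E := hE ▸ subset_union_left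
  have hE₁ : F.E ⊆ M.E := hE ▸ subset_union_right
  have hJsub : JM ∪ JN ⊆ N₀.E := hNind.subset_ground
  have hJMsub : JM ⊆ N₀.E := subset_union_left.trans hJsub
  have hJNsub : JN ⊆ N₀.E := subset_union_right.trans hJsub
  have hMind' : M.Indep (JM ∪ JN) := hMind.of_restrict
  have hMJM : M.Indep JM := hMind'.subset subset_union_left
  have hN₀JN : N₀.Indep JN := hNind.subset subset_union_right
  rw [restrict_closure_eq _ hJMsub hE₀, restrict_ground_eq] at hcl
  obtain ⟨P, hP⟩ : ∃ P, P = M.closure JM ∩ N₀.E := ⟨_, rfl⟩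
  rw [← hP] at hcl
  obtain ⟨E₂, hE₂⟩ : ∃ E₂, E₂ = M.E \ P := ⟨_, rfl⟩
  have hJMP : JM ⊆ P := fun a ha =>
    hP ▸ ⟨M.subset_closure JM hMJM.subset_ground ha, hJMsub ha⟩
  have hJNE₂ : JN ⊆ E₂ := by
    intro a ha
    rw [hE₂]
    refine ⟨hE₀ (hJNsub ha), fun haP => ?_⟩
    rw [hP] at haP
    exact Set.disjoint_left.mp (disjoint_closure_of_indep_union hMind' hdis) haP.1 ha
  have hFE₂ : F.E ⊆ E₂ := by
    intro a ha
    rw [hE₂]
    refine ⟨hE₁ ha, fun haP => ?_⟩
    rw [hP] at haP
    exact Set.disjoint_left.mp hd haP.2 ha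
  have hE₂sub : E₂ ⊆ M.E := by rw [hE₂]; exact sdiff_subset
  have hE₂N : E₂ ⊆ N.E := by rw [hNE]; exact hE₂sub
  have hE₂JM : E₂ ⊆ (M ／ JM).E := by
    intro a ha
    rw [hE₂] at ha
    exact ⟨ha.1, fun haJ => ha.2 (hJMP haJ)⟩
  have hNJN : N.Indep JN := by
    have : (N ↾ N₀.E).Indep JN := by
      rw [hNdef, disjointSum_restrict_left]; exact hN₀JN
    exact this.of_restrict
  obtain ⟨F₁, hF₁⟩ := F.exists_isBase
  have hF₁fin : F₁.Finite := hF₁.finite
  have hF₁E₂ : F₁ ⊆ E₂ := hF₁.subset_ground.trans hFE₂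
  have hred : SatisfiesIntersection (N ↾ E₂) ((M ／ JM) ↾ E₂) := by
    apply intersection_of_finite_deficiency (N ↾ E₂) ((M ／ JM) ↾ E₂)
      (by rw [restrict_ground_eq, restrict_ground_eq]) hF₁fin.toFinset.card JN hF₁fin.toFinset
    · exact hNJN.indep_restrict_of_subset hJNE₂
    · rw [restrict_indep_iff]
      refine ⟨?_, hJNE₂⟩
      rw [hMJM.contract_indep_iff]
      exact ⟨hdis.symm, by rw [union_comm]; exact hMind'⟩
    · exact le_rfl
    · rw [Set.Finite.coe_toFinset, restrict_ground_eq]
      exact hF₁E₂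
    · rw [Set.Finite.coe_toFinset, restrict_ground_eq]
      have hsub : JN ∪ F₁ ⊆ E₂ := union_subset hJNE₂ hF₁E₂
      rw [restrict_closure_eq _ hsub hE₂N]
      intro e he
      refine ⟨?_, he⟩
      have he' := he
      rw [hE₂] at he'
      have heM : e ∈ N₀.E ∪ F.E := hE ▸ he'.1
      rcases heM with he0 | he1
      · have h3 : e ∈ P ∪ N₀.closure JN := by rw [hcl]; exact he0
        rcases h3 with h1 | h2
        · exact absurd h1 he'.2
        · have h4 := closure_subset_disjointSum_left N₀ F hd hJNsub h2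
          rw [← hNdef] at h4
          exact N.closure_subset_closure subset_union_left h4
      · have h3 : e ∈ F.closure F₁ := by rw [hF₁.closure_eq]; exact he1
        have h4 := closure_subset_disjointSum_right N₀ F hd hF₁.subset_ground h3
        rw [← hNdef] at h4
        exact N.closure_subset_closure subset_union_right h4
  have hred' := hred.symm (by rw [restrict_ground_eq, restrict_ground_eq])
  obtain ⟨KM, KN, hKdis, hKM, hKN, hKcl⟩ := hred'
  rw [restrict_ground_eq] at hKcl
  have hKsub : KM ∪ KN ⊆ E₂ := hKN.subset_ground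
  have hKMsub : KM ⊆ E₂ := subset_union_left.trans hKsub
  have hKNsub : KN ⊆ E₂ := subset_union_right.trans hKsub
  have hKMind : M.Indep ((KM ∪ KN) ∪ JM) := by
    have h1 : (M ／ JM).Indep (KM ∪ KN) := hKM.of_restrict
    exact (hMJM.contract_indep_iff.mp h1).2
  have hKNind : N.Indep (KM ∪ KN) := hKN.of_restrict
  refine ⟨JM ∪ KM, KN, ?_, ?_, ?_, ?_⟩
  · rw [Set.disjoint_left]
    rintro a (haJ | haK) haN
    · have h5 := hKNsub haN
      rw [hE₂] at h5
      exact h5.2 (hJMP haJ)
    · exact Set.disjoint_left.mp hKdis haK haN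
  · have : JM ∪ KM ∪ KN = (KM ∪ KN) ∪ JM := by
      rw [union_assoc, union_comm]
    rw [this]; exact hKMind
  · have hK' := hKNind
    rw [hNdef, disjointSum_indep_iff] at hK' ⊢
    obtain ⟨hK0, hK1, hKg⟩ := hK'
    refine ⟨?_, hK1.subset ?_, ?_⟩
    · have hX : N₀.IsBasis JN (N₀.closure JN) := hN₀JN.isBasis_closure
      have hdisj : Disjoint (N₀.closure JN) JM :=
        disjoint_closure_of_indep_union (M := N₀) (A := JN) (B := JM)
          (by rw [union_comm]; exact hNind) hdis.symm
      have hJMc : (N₀ ／ N₀.closure JN).Indep JM := by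
        rw [hX.contract_indep_iff]
        exact ⟨hNind, hdisj⟩
      have hK0sub : (KM ∪ KN) ∩ N₀.E ⊆ N₀.closure JN := by
        rintro a ⟨haK, ha0⟩
        have h3 : a ∈ P ∪ N₀.closure JN := by rw [hcl]; exact ha0
        rcases h3 with h1 | h2
        · have h5 := hKsub haK
          rw [hE₂] at h5
          exact absurd h1 h5.2
        · exact h2
      have h6 := indep_union_of_contract (N₀.closure_subset_ground JN) hJMc hK0 hK0sub
      apply h6.subset
      rintro a ⟨(haJ | haK) | haK, ha0⟩
      · exact Or.inl haJ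
      · exact Or.inr ⟨Or.inl haK, ha0⟩
      · exact Or.inr ⟨Or.inr haK, ha0⟩
    · rintro a ⟨(haJ | haK) | haK, ha1⟩
      · exact absurd ha1 (fun h' => Set.disjoint_left.mp hd (hJMsub haJ) h')
      · exact ⟨Or.inl haK, ha1⟩
      · exact ⟨Or.inr haK, ha1⟩
    · rintro a ((haJ | haK) | haK)
      · exact Or.inl (hJMsub haJ)
      · exact hKg (Or.inl haK)
      · exact hKg (Or.inr haK)
  · apply subset_antisymm
    · apply union_subset (M.closure_subset_ground _)
      rw [← hNE]; exact N.closure_subset_ground _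
    · intro e he
      by_cases heP : e ∈ P
      · left
        rw [hP] at heP
        exact M.closure_subset_closure subset_union_left heP.1
      · have he₂ : e ∈ E₂ := by rw [hE₂]; exact ⟨he, heP⟩
        have h3 : e ∈ ((M ／ JM) ↾ E₂).closure KM ∪ (N ↾ E₂).closure KN := by
          rw [hKcl]; exact he₂
        rcases h3 with h1 | h2
        · left
          rw [restrict_closure_eq _ hKMsub hE₂JM, contract_closure_eq] at h1
          rw [union_comm]; exact h1.1.1
        · right
          rw [restrict_closure_eq _ hKNsub hE₂N] at h2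
          exact h2.1

/-- **Finite-corank extension.** If `N = N₀ ⊕ F` with `F` of finite corank and the pair
`(M ／ F.E, N₀)` satisfies intersection, then so does `(M, N)`. -/
theorem intersection_sum_dual_rankFinite (M N₀ F : Matroid α) (hd : Disjoint N₀.E F.E)
    (hE : M.E = N₀.E ∪ F.E) [F✶.RankFinite]
    (h : SatisfiesIntersection (M ／ F.E) N₀) :
    SatisfiesIntersection M (N₀.disjointSum F hd) := by
  classical
  obtain ⟨JM, JN, hdis, hMind, hNind, hcl⟩ := h
  obtain ⟨N, hNdef⟩ : ∃ N, N = N₀.disjointSum F hd := ⟨_, rfl⟩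
  rw [← hNdef]
  have hNE : N.E = M.E := by rw [hNdef, disjointSum_ground_eq, hE]
  have hE₀ : N₀.E ⊆ M.E := hE ▸ subset_union_left
  have hE₁ : F.E ⊆ M.E := hE ▸ subset_union_right
  have hME₁ : (M ／ F.E).E = N₀.E := by
    rw [contract_ground, hE]
    ext a
    constructor
    · rintro ⟨ha | ha, hna⟩
      · exact ha
      · exact absurd ha hna
    · intro ha
      exact ⟨Or.inl ha, fun haU => Set.disjoint_left.mp hd ha haU⟩
  have hJsub : JM ∪ JN ⊆ N₀.E := hNind.subset_ground
  have hJMsub : JM ⊆ N₀.E := subset_union_left.trans hJsub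
  have hJNsub : JN ⊆ N₀.E := subset_union_right.trans hJsub
  have hN₀JN : N₀.Indep JN := hNind.subset subset_union_right
  obtain ⟨I₁, hI₁⟩ := M.exists_isBasis F.E hE₁
  have hMind' : M.Indep ((JM ∪ JN) ∪ I₁) := (hI₁.contract_indep_iff.mp hMind).1
  obtain ⟨BF, hBF⟩ := F.exists_isBase
  have hDfin : (F.E \ BF).Finite := hBF.compl_isBase_dual.finite
  rw [contract_closure_eq, hME₁] at hcl
  obtain ⟨Q, hQ⟩ : ∃ Q, Q = N₀.closure JN := ⟨_, rfl⟩
  rw [← hQ] at hcl
  obtain ⟨E₂, hE₂⟩ : ∃ E₂, E₂ = M.E \ Q := ⟨_, rfl⟩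
  have hJNQ : JN ⊆ Q := by rw [hQ]; exact N₀.subset_closure JN hN₀JN.subset_ground
  have hQ0 : Q ⊆ N₀.E := by rw [hQ]; exact N₀.closure_subset_ground JN
  have hJME₂ : JM ⊆ E₂ := by
    intro a ha
    rw [hE₂]
    refine ⟨hE₀ (hJMsub ha), fun haQ => ?_⟩
    rw [hQ] at haQ
    exact Set.disjoint_left.mp (disjoint_closure_of_indep_union (M := N₀) (A := JN) (B := JM)
      (by rw [union_comm]; exact hNind) hdis.symm) haQ ha
  have hFE₂ : F.E ⊆ E₂ := by
    intro a ha
    rw [hE₂]
    exact ⟨hE₁ ha, fun haQ => Set.disjoint_left.mp hd (hQ0 haQ) ha⟩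
  have hE₂sub : E₂ ⊆ M.E := by rw [hE₂]; exact sdiff_subset
  have hNJN : N.Indep JN := by
    have : (N ↾ N₀.E).Indep JN := by
      rw [hNdef, disjointSum_restrict_left]; exact hN₀JN
    exact this.of_restrict
  have hE₂N : E₂ ⊆ (N ／ JN).E := by
    intro a ha
    rw [hE₂] at ha
    exact ⟨hNE ▸ ha.1, fun haJ => ha.2 (hJNQ haJ)⟩
  have hspan : E₂ ⊆ M.closure (JM ∪ I₁) := by
    intro e he
    rw [hE₂] at he
    have heM : e ∈ N₀.E ∪ F.E := hE ▸ he.1
    have hsub : JM ∪ F.E ⊆ M.closure (JM ∪ I₁) := by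
      rintro a (ha | ha)
      · exact M.mem_closure_of_mem' (Or.inl ha) (hE₀ (hJMsub ha))
      · exact M.closure_subset_closure subset_union_right (hI₁.subset_closure ha)
    rcases heM with he0 | he1
    · have h3 : e ∈ M.closure (JM ∪ F.E) \ F.E ∪ Q := by rw [hcl]; exact he0
      rcases h3 with h1 | h2
      · exact M.closure_subset_closure_of_subset_closure hsub h1.1
      · exact absurd h2 he.2
    · exact hsub (Or.inr he1)
  have hJ₀M : M.Indep (JM ∪ I₁ ∩ BF) := hMind'.subset (by
    rintro a (ha | ha)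
    · exact Or.inl (Or.inl ha)
    · exact Or.inr ha.1)
  have hJ₀sub : JM ∪ I₁ ∩ BF ⊆ E₂ := union_subset hJME₂ (fun a ha => hFE₂ (hI₁.subset ha.1))
  have hfin : (I₁ \ BF).Finite := hDfin.subset (fun a ha => ⟨hI₁.subset ha.1, ha.2⟩)
  have hred : SatisfiesIntersection (M ↾ E₂) ((N ／ JN) ↾ E₂) := by
    apply intersection_of_finite_deficiency (M ↾ E₂) ((N ／ JN) ↾ E₂)
      (by rw [restrict_ground_eq, restrict_ground_eq]) hfin.toFinset.card (JM ∪ I₁ ∩ BF)
      hfin.toFinset
    · exact hJ₀M.indep_restrict_of_subset hJ₀sub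
    · rw [restrict_indep_iff]
      refine ⟨?_, hJ₀sub⟩
      rw [hNJN.contract_indep_iff]
      refine ⟨?_, ?_⟩
      · rw [Set.disjoint_left]
        rintro a (ha | ha) haN
        · exact Set.disjoint_left.mp hdis ha haN
        · exact Set.disjoint_left.mp hd (hJNsub haN) (hI₁.subset ha.1)
      · rw [hNdef, disjointSum_indep_iff]
        refine ⟨hNind.subset ?_, hBF.indep.subset ?_, ?_⟩
        · rintro a ⟨(ha | ha) | ha, ha0⟩
          · exact Or.inl ha
          · exact absurd (hI₁.subset ha.1) (fun h' => Set.disjoint_left.mp hd ha0 h')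
          · exact Or.inr ha
        · rintro a ⟨(ha | ha) | ha, ha1⟩
          · exact absurd ha1 (fun h' => Set.disjoint_left.mp hd (hJMsub ha) h')
          · exact ha.2
          · exact absurd ha1 (fun h' => Set.disjoint_left.mp hd (hJNsub ha) h')
        · rintro a ((ha | ha) | ha)
          · exact Or.inl (hJMsub ha)
          · exact Or.inr (hI₁.subset ha.1)
          · exact Or.inl (hJNsub ha)
    · exact le_rfl
    · rw [Set.Finite.coe_toFinset, restrict_ground_eq]
      exact fun a ha => hFE₂ (hI₁.subset ha.1)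
    · rw [Set.Finite.coe_toFinset, restrict_ground_eq]
      have hunion : JM ∪ I₁ ∩ BF ∪ I₁ \ BF = JM ∪ I₁ := by
        rw [union_assoc, inter_union_sdiff]
      rw [hunion]
      have hsub : JM ∪ I₁ ⊆ E₂ := union_subset hJME₂ (fun a ha => hFE₂ (hI₁.subset ha))
      rw [restrict_closure_eq _ hsub hE₂sub]
      exact fun e he => ⟨hspan he, he⟩
  obtain ⟨KM, KN, hKdis, hKM, hKN, hKcl⟩ := hred
  rw [restrict_ground_eq] at hKcl
  have hKsub : KM ∪ KN ⊆ E₂ := hKM.subset_ground
  have hKMsub : KM ⊆ E₂ := subset_union_left.trans hKsub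
  have hKNsub : KN ⊆ E₂ := subset_union_right.trans hKsub
  have hKNind : N.Indep ((KM ∪ KN) ∪ JN) := by
    have h1 : (N ／ JN).Indep (KM ∪ KN) := hKN.of_restrict
    exact (hNJN.contract_indep_iff.mp h1).2
  have hKMind : M.Indep (KM ∪ KN) := hKM.of_restrict
  refine ⟨KM, KN ∪ JN, ?_, ?_, ?_, ?_⟩
  · rw [Set.disjoint_left]
    rintro a haK (haN | haJ)
    · exact Set.disjoint_left.mp hKdis haK haN
    · have h5 := hKMsub haK
      rw [hE₂] at h5
      exact h5.2 (hJNQ haJ)
  · have hsubE₂ : JM ∪ I₁ ⊆ E₂ := union_subset hJME₂ (fun a ha => hFE₂ (hI₁.subset ha))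
    have hbasis : M.IsBasis (JM ∪ I₁) E₂ :=
      (hMind'.subset (by
        rintro a (ha | ha)
        · exact Or.inl (Or.inl ha)
        · exact Or.inr ha)).isBasis_of_subset_of_subset_closure hsubE₂ hspan
    have hJNc : (M ／ E₂).Indep JN := by
      rw [hbasis.contract_indep_iff]
      refine ⟨hMind'.subset ?_, ?_⟩
      · rintro a (ha | ha | ha)
        · exact Or.inl (Or.inr ha)
        · exact Or.inl (Or.inl ha)
        · exact Or.inr ha
      · rw [Set.disjoint_left]
        intro a ha haJ
        rw [hE₂] at ha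
        exact ha.2 (hJNQ haJ)
    have h6 := indep_union_of_contract hE₂sub hJNc hKMind hKsub
    apply h6.subset
    rintro a (ha | ha | ha)
    · exact Or.inr (Or.inl ha)
    · exact Or.inr (Or.inr ha)
    · exact Or.inl ha
  · have : KM ∪ (KN ∪ JN) = (KM ∪ KN) ∪ JN := by rw [union_assoc]
    rw [this]; exact hKNind
  · apply subset_antisymm
    · apply union_subset (M.closure_subset_ground _)
      rw [← hNE]; exact N.closure_subset_ground _
    · intro e he
      by_cases heQ : e ∈ Q
      · right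
        rw [hQ] at heQ
        have h1 := closure_subset_disjointSum_left N₀ F hd hJNsub heQ
        rw [← hNdef] at h1
        exact N.closure_subset_closure subset_union_right h1
      · have he₂ : e ∈ E₂ := by rw [hE₂]; exact ⟨he, heQ⟩
        have h3 : e ∈ (M ↾ E₂).closure KM ∪ ((N ／ JN) ↾ E₂).closure KN := by
          rw [hKcl]; exact he₂
        rcases h3 with h1 | h2
        · left
          rw [restrict_closure_eq _ hKMsub hE₂sub] at h1
          exact h1.1
        · right
          rw [restrict_closure_eq _ hKNsub hE₂N, contract_closure_eq] at h2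
          exact h2.1.1

/-- A uniform matroid satisfies intersection with every matroid on its ground set. -/
lemma intersection_uniform {M U : Matroid α} (hE : M.E = U.E) (hU : IsUniform U) :
    SatisfiesIntersection M U := by
  obtain ⟨B, hB⟩ := M.exists_isBase
  rcases hU B (hE ▸ hB.subset_ground) with hind | hsp
  · refine ⟨B, ∅, disjoint_empty _, ?_, ?_, ?_⟩
    · rw [union_empty]; exact hB.indep
    · rw [union_empty]; exact hind
    · rw [hB.closure_eq]
      exact union_eq_left.mpr ((U.closure_subset_ground _).trans hE.symm.subset)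
  · obtain ⟨BU, hBU, hBUB⟩ := hsp.exists_isBase_subset
    refine ⟨∅, BU, empty_disjoint _, ?_, ?_, ?_⟩
    · rw [empty_union]; exact hB.indep.subset hBUB
    · rw [empty_union]; exact hBU.indep
    · rw [hBU.closure_eq, ← hE]
      exact union_eq_right.mpr (M.closure_subset_ground _)

/-- An arbitrary matroid paired with `(U ⊕ R) ⊕ C`, where `U` is uniform, `R` has finite rank and
`C` has finite corank, satisfies intersection. -/
theorem intersection_uniform_sum_finite (M U R C : Matroid α) (h1 : Disjoint U.E R.E)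
    (h2 : Disjoint (U.disjointSum R h1).E C.E) (hE : M.E = (U.disjointSum R h1).E ∪ C.E)
    (hU : IsUniform U) [R.RankFinite] [C✶.RankFinite] :
    SatisfiesIntersection M ((U.disjointSum R h1).disjointSum C h2) := by
  apply intersection_sum_dual_rankFinite M (U.disjointSum R h1) C h2 hE
  have hE' : (M ／ C.E).E = U.E ∪ R.E := by
    rw [contract_ground, hE, disjointSum_ground_eq]
    rw [disjointSum_ground_eq] at h2
    ext a
    constructor
    · rintro ⟨ha | ha, hna⟩
      · exact ha
      · exact absurd ha hna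
    · intro ha
      exact ⟨Or.inl ha, fun haC => Set.disjoint_left.mp h2 ha haC⟩
  apply intersection_sum_rankFinite (M ／ C.E) U R h1 hE'
  exact intersection_uniform (by rw [restrict_ground_eq]) hU

end Vale.Agent.Lib.P068
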