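import Vale.Agent.Lib.P068.Deficiency
import Mathlib.Combinatorics.Matroid.Rank.ENat

namespace Vale.Agent.Lib.P068

open Set Matroid

variable {α : Type*}

/-- `FiniteDefect M' M`: passing from `M'` to `M` costs only finitely much.  Every
`M'`-independent set becomes `M`-independent after removing finitely many elements, and the
`M'`-closure of every set is contained in the `M`-closure of the set enlarged by finitely many
elements. -/
def FiniteDefect (M' M : Matroid α) : Prop :=
  (∀ I : Set α, M'.Indep I → ∃ F : Set α, F.Finite ∧ M.Indep (I \ F)) ∧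
  (∀ X : Set α, X ⊆ M.E → ∃ G : Set α, G.Finite ∧ M'.closure X ⊆ M.closure (X ∪ G))

/-- `NearlyFinitaryVia M Mf`: the matroid `Mf` is the finitarization of `M` (a set is
`Mf`-independent iff all its finite subsets are `M`-independent) and `M` is nearly finitary
(every base of the finitarization contains a base of `M` with finite difference). -/
def NearlyFinitaryVia (M Mf : Matroid α) : Prop :=
  (∀ I : Set α, Mf.Indep I ↔ ∀ J : Set α, J ⊆ I → J.Finite → M.Indep J) ∧
  (∀ B' : Set α, Mf.IsBase B' → ∃ B : Set α, B ⊆ B' ∧ M.IsBase B ∧ (B' \ B).Finite)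

lemma finiteDefect_refl (M : Matroid α) : FiniteDefect M M := by
  refine ⟨fun I hI => ⟨∅, finite_empty, by simpa using hI⟩, fun X _ => ⟨∅, finite_empty, ?_⟩⟩
  simp

/-- **One-sided comparison.** If `M'` has finite defect over `M` and `(M', N)` satisfies
intersection, then `(M, N)` satisfies intersection. -/
theorem SatisfiesIntersection.of_finiteDefect_left {M N M' : Matroid α} (hE : M.E = N.E)
    (hM : M'.E = M.E) (h : FiniteDefect M' M) (hSI : SatisfiesIntersection M' N) :
    SatisfiesIntersection M N := by
  obtain ⟨JM, JN, hd, hMi, hNi, hcl⟩ := hSI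
  obtain ⟨F, hF, hIF⟩ := h.1 _ hMi
  have hJME : JM ⊆ M.E := hM ▸ (subset_union_left.trans hMi.subset_ground)
  obtain ⟨G, hG, hcG⟩ := h.2 JM hJME
  have hunion : JM \ F ∪ JN \ F = (JM ∪ JN) \ F := by
    ext x; simp only [mem_union, mem_sdiff]; tauto
  refine intersection_of_almost_solution M N hE (A := JM \ F) (B := JN \ F)
    (GM := (JM ∩ F) ∪ G) (GN := JN ∩ F) ?_ ?_ ?_ ?_ ?_ ?_
  · exact hd.mono sdiff_subset sdiff_subset
  · rw [hunion]; exact hIF
  · rw [hunion]; exact hNi.subset sdiff_subset
  · exact (hF.subset inter_subset_right).union hG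
  · exact hF.subset inter_subset_right
  · have h1 : JM \ F ∪ (JM ∩ F ∪ G) = JM ∪ G := by
      ext x; simp only [mem_union, mem_sdiff, mem_inter_iff]; tauto
    have h2 : JN \ F ∪ JN ∩ F = JN := by
      ext x; simp only [mem_union, mem_sdiff, mem_inter_iff]; tauto
    rw [h1, h2, ← hM, ← hcl]
    exact union_subset_union hcG subset_rfl

/-- **Two-sided comparison.** -/
theorem SatisfiesIntersection.of_finiteDefect {M N M' N' : Matroid α} (hE : M.E = N.E)
    (hM : M'.E = M.E) (hN : N'.E = N.E) (h₁ : FiniteDefect M' M) (h₂ : FiniteDefect N' N)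
    (hSI : SatisfiesIntersection M' N') : SatisfiesIntersection M N := by
  have hE' : M.E = N'.E := by rw [hN, hE]
  have h1 : SatisfiesIntersection M N' := hSI.of_finiteDefect_left hE' hM h₁
  have h2 : SatisfiesIntersection N' M := h1.symm hE'
  have h3 : SatisfiesIntersection N M := h2.of_finiteDefect_left hE.symm hN h₂
  exact h3.symm hE.symm

/-- The finitarization of a nearly finitary matroid has finite defect over it. -/
theorem NearlyFinitaryVia.finiteDefect {M Mf : Matroid α} (hE : Mf.E = M.E)
    (h : NearlyFinitaryVia M Mf) : FiniteDefect Mf M := by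
  obtain ⟨hfin, hnear⟩ := h
  refine ⟨fun I hI => ?_, fun X hX => ⟨∅, finite_empty, ?_⟩⟩
  · obtain ⟨B', hB', hIB'⟩ := hI.exists_isBase_superset
    obtain ⟨B, hBB', hB, hfinB⟩ := hnear B' hB'
    refine ⟨B' \ B, hfinB, hB.indep.subset ?_⟩
    intro x hx
    by_contra hxB
    exact hx.2 ⟨hIB' hx.1, hxB⟩
  · rw [union_empty]
    intro e he
    by_cases heX : e ∈ X
    · exact M.mem_closure_of_mem' heX (hX heX)
    have hXf : X ⊆ Mf.E := hE ▸ hX
    obtain ⟨I, hI⟩ := Mf.exists_isBasis X hXf
    have heI : e ∉ I := fun h' => heX (hI.subset h')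
    rw [← hI.closure_eq_closure, hI.indep.mem_closure_iff_of_notMem heI] at he
    have hnot : ¬ Mf.Indep (insert e I) := he.not_indep
    rw [hfin] at hnot
    push Not at hnot
    obtain ⟨J, hJsub, hJfin, hJdep⟩ := hnot
    have hJ' : M.Indep (J \ {e}) := by
      have h1 : Mf.Indep (J \ {e}) := hI.indep.subset (by
        intro x hx
        rcases hJsub hx.1 with rfl | h'
        · exact absurd rfl hx.2
        · exact h')
      exact (hfin _).1 h1 _ subset_rfl hJfin.sdiff
    have heJ : e ∈ J := by
      by_contra heJ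
      apply hJdep
      have : J \ {e} = J := by
        ext x; simp only [mem_sdiff, mem_singleton_iff, and_iff_left_iff_imp]
        rintro hx rfl; exact heJ hx
      rwa [this] at hJ'
    have heE : e ∈ M.E := hE ▸ (he.subset_ground (mem_insert _ _))
    have hins : insert e (J \ {e}) = J := by
      ext x; simp only [mem_insert_iff, mem_sdiff, mem_singleton_iff]
      constructor
      · rintro (rfl | h'); exacts [heJ, h'.1]
      · intro hx; by_cases hxe : x = e
        · exact Or.inl hxe
        · exact Or.inr ⟨hx, hxe⟩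
    have hmem : e ∈ M.closure (J \ {e}) := by
      rw [hJ'.mem_closure_iff']
      refine ⟨heE, fun hind => ?_⟩
      rw [hins] at hind
      exact absurd hind hJdep
    refine M.closure_subset_closure ?_ hmem
    intro x hx
    rcases hJsub hx.1 with rfl | h'
    · exact absurd rfl hx.2
    · exact hI.subset h'

/-- Every matroid has a finitarization. -/
theorem exists_finitarization (M : Matroid α) :
    ∃ Mf : Matroid α, Mf.E = M.E ∧
      ∀ I : Set α, Mf.Indep I ↔ ∀ J : Set α, J ⊆ I → J.Finite → M.Indep J := by
  refine ⟨(IndepMatroid.ofFinitaryCardAugment M.E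
    (fun I => ∀ J : Set α, J ⊆ I → J.Finite → M.Indep J) ?_ ?_ ?_ ?_ ?_).matroid, rfl,
    fun I => Iff.rfl⟩
  · intro J hJ _
    rw [subset_empty_iff.1 hJ]; exact M.empty_indep
  · intro I J hJ hIJ K hK hKfin
    exact hJ K (hK.trans hIJ) hKfin
  · intro I J hI hIfin hJ hJfin hcard
    have hI' : M.Indep I := hI I subset_rfl hIfin
    have hJ' : M.Indep J := hJ J subset_rfl hJfin
    have hlt : I.encard < J.encard := by
      rw [← hIfin.cast_ncard_eq, ← hJfin.cast_ncard_eq]
      exact_mod_cast hcard
    obtain ⟨e, he, hins⟩ := hI'.exists_insert_of_encard_lt hJ' hlt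
    exact ⟨e, he.1, he.2, fun K hK _ => hins.subset hK⟩
  · intro I hI J hJ hJfin
    exact hI J hJ hJfin J subset_rfl hJfin
  · intro I hI e he
    have := hI {e} (singleton_subset_iff.2 he) (finite_singleton e)
    exact this.subset_ground (mem_singleton e)

/-- One-sided transfer for a matroid that is unchanged, nearly finitary (replaced by its
finitarization) or nearly cofinitary (replaced by its cofinitarization). -/
theorem SatisfiesIntersection.of_nearly_left {M N M' : Matroid α} (hE : M.E = N.E)
    (hM : M'.E = M.E)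
    (h : M' = M ∨ NearlyFinitaryVia M M' ∨ NearlyFinitaryVia M✶ M'✶)
    (hSI : SatisfiesIntersection M' N) : SatisfiesIntersection M N := by
  rcases h with rfl | h | h
  · exact hSI
  · exact hSI.of_finiteDefect_left hE hM (h.finiteDefect hM)
  · have hE' : M'.E = N.E := by rw [hM, hE]
    have h1 : SatisfiesIntersection M'✶ N✶ := hSI.dual hE'
    have h2 : SatisfiesIntersection M✶ N✶ :=
      h1.of_finiteDefect_left (by simpa using hE) (by simpa using hM)
        (h.finiteDefect (by simpa using hM))
    have h3 := h2.dual (by simpa using hE)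
    simpa using h3

/-- Two-sided transfer. -/
theorem SatisfiesIntersection.of_nearly {M N M' N' : Matroid α} (hE : M.E = N.E)
    (hM : M'.E = M.E) (hN : N'.E = N.E)
    (h₁ : M' = M ∨ NearlyFinitaryVia M M' ∨ NearlyFinitaryVia M✶ M'✶)
    (h₂ : N' = N ∨ NearlyFinitaryVia N N' ∨ NearlyFinitaryVia N✶ N'✶)
    (hSI : SatisfiesIntersection M' N') : SatisfiesIntersection M N := by
  have hE' : M.E = N'.E := by rw [hN, hE]
  have h1 : SatisfiesIntersection M N' := hSI.of_nearly_left hE' hM h₁
  have h2 : SatisfiesIntersection N' M := h1.symm hE'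
  have h3 : SatisfiesIntersection N M := h2.of_nearly_left hE.symm hN h₂
  exact h3.symm hE.symm

end Vale.Agent.Lib.P068
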