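import Mathlib.Combinatorics.Matroid.Sum
import Vale.Agent.Lib.P068.Augment

namespace Vale.Agent.Lib.P068

open Set Matroid

variable {α : Type*}

lemma disjointSum_restrict_left (N₀ U : Matroid α) (hd : Disjoint N₀.E U.E) :
    (N₀.disjointSum U hd) ↾ N₀.E = N₀ := by
  apply Matroid.ext_indep
  · rw [restrict_ground_eq]
  · intro I hI
    rw [restrict_ground_eq] at hI
    rw [restrict_indep_iff, disjointSum_indep_iff]
    have h1 : I ∩ N₀.E = I := inter_eq_left.mpr hI
    have h2 : I ∩ U.E = ∅ := by
      apply Set.eq_empty_of_forall_notMem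
      rintro a ⟨haI, haU⟩
      exact Set.disjoint_left.mp hd (hI haI) haU
    rw [h1, h2]
    constructor
    · rintro ⟨⟨h, -, -⟩, -⟩
      exact h
    · intro h
      exact ⟨⟨h, U.empty_indep, hI.trans subset_union_left⟩, hI⟩

/-- Reduction: if an `M`-basis `I₁` of `U.E` is `U`-independent, then intersection for
`(M ／ U.E, N₀)` lifts to intersection for `(M, N₀ ⊕ U)`. -/
lemma intersection_of_contract (M N₀ U : Matroid α) (hd : Disjoint N₀.E U.E)
    (hE : M.E = N₀.E ∪ U.E) {I₁ : Set α} (hI₁ : M.IsBasis I₁ U.E) (hI₁U : U.Indep I₁)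
    (h : SatisfiesIntersection (M ／ U.E) N₀) :
    SatisfiesIntersection M (N₀.disjointSum U hd) := by
  obtain ⟨JM, JN, hdis, hMind, hNind, hcl⟩ := h
  have hME : (M ／ U.E).E = N₀.E := by
    rw [contract_ground, hE]
    ext a
    constructor
    · rintro ⟨ha | ha, hna⟩
      · exact ha
      · exact absurd ha hna
    · intro ha
      exact ⟨Or.inl ha, fun haU => Set.disjoint_left.mp hd ha haU⟩
  have hJsub : JM ∪ JN ⊆ N₀.E := hNind.subset_ground
  have hI₁sub : I₁ ⊆ U.E := hI₁.subset
  have hMind' : M.Indep ((JM ∪ JN) ∪ I₁) := (hI₁.contract_indep_iff.mp hMind).1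
  refine ⟨I₁ ∪ JM, JN, ?_, ?_, ?_, ?_⟩
  · rw [Set.disjoint_left]
    rintro a (haI | haM) haN
    · exact Set.disjoint_left.mp hd (hJsub (Or.inr haN)) (hI₁sub haI)
    · exact Set.disjoint_left.mp hdis haM haN
  · have : I₁ ∪ JM ∪ JN = (JM ∪ JN) ∪ I₁ := by
      rw [union_assoc, union_comm]
    rw [this]; exact hMind'
  · rw [disjointSum_indep_iff]
    refine ⟨hNind.subset ?_, hI₁U.subset ?_, ?_⟩
    · rintro a ⟨(haI | haM) | haN, haE⟩
      · exact absurd (hI₁sub haI) (fun haU => Set.disjoint_left.mp hd haE haU)
      · exact Or.inl haM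
      · exact Or.inr haN
    · rintro a ⟨(haI | haM) | haN, haE⟩
      · exact haI
      · exact absurd haE (fun haU => Set.disjoint_left.mp hd (hJsub (Or.inl haM)) haU)
      · exact absurd haE (fun haU => Set.disjoint_left.mp hd (hJsub (Or.inr haN)) haU)
    · rintro a ((haI | haM) | haN)
      · exact Or.inr (hI₁sub haI)
      · exact Or.inl (hJsub (Or.inl haM))
      · exact Or.inl (hJsub (Or.inr haN))
  · apply subset_antisymm
    · apply union_subset (M.closure_subset_ground _)
      have := (N₀.disjointSum U hd).closure_subset_ground JN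
      rwa [disjointSum_ground_eq, ← hE] at this
    · intro e he
      rw [hE] at he
      rcases he with he0 | he1
      · have he' : e ∈ (M ／ U.E).closure JM ∪ N₀.closure JN := by
          rw [hcl, hME]; exact he0
        rcases he' with h1 | h2
        · left
          rw [contract_closure_eq] at h1
          have hsub : JM ∪ U.E ⊆ M.closure (I₁ ∪ JM) := by
            rintro a (haM | haU)
            · exact M.mem_closure_of_mem' (Or.inr haM)
                (hMind'.subset_ground (Or.inl (Or.inl haM)))
            · exact M.closure_subset_closure subset_union_left (hI₁.subset_closure haU)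
          exact M.closure_subset_closure_of_subset_closure hsub h1.1
        · right
          have hres := disjointSum_restrict_left N₀ U hd
          have hJN : JN ⊆ N₀.E := subset_union_right.trans hJsub
          have : N₀.closure JN = (N₀.disjointSum U hd).closure JN ∩ N₀.E := by
            conv_lhs => rw [← hres]
            rw [restrict_closure_eq _ hJN (by rw [disjointSum_ground_eq]; exact subset_union_left)]
          rw [this] at h2
          exact h2.1
      · left
        exact M.closure_subset_closure subset_union_left (hI₁.subset_closure he1)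

/-- Intersection holds for an arbitrary matroid paired with the direct sum of a matroid of
finite rank and a uniform matroid. -/
theorem intersection_finiteRank_sum_uniform (M N₀ U : Matroid α) (hd : Disjoint N₀.E U.E)
    (hE : M.E = N₀.E ∪ U.E) [N₀.RankFinite] (hU : IsUniform U) :
    SatisfiesIntersection M (N₀.disjointSum U hd) := by
  have hUE : U.E ⊆ M.E := hE ▸ subset_union_right
  obtain ⟨I₁, hI₁⟩ := M.exists_isBasis U.E hUE
  obtain ⟨B₀, hB₀⟩ := N₀.exists_isBase
  rcases hU I₁ hI₁.subset with hind | hsp
  · -- reduce to the contraction, where the finite-rank matroid `N₀` is handled directly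
    apply intersection_of_contract M N₀ U hd hE hI₁ hind
    obtain ⟨B', hB'⟩ := (M ／ U.E).exists_isBase
    have hME : (M ／ U.E).E = N₀.E := by
      rw [contract_ground, hE]
      ext a
      constructor
      · rintro ⟨ha | ha, hna⟩
        · exact ha
        · exact absurd ha hna
      · intro ha
        exact ⟨Or.inl ha, fun haU => Set.disjoint_left.mp hd ha haU⟩
    exact intersection_of_bases_sdiff_finite' hME hB' hB₀
      (Or.inr (hB₀.finite.subset sdiff_subset))
  · obtain ⟨BU, hBU, hBUsub⟩ := hsp.exists_isBase_subset
    have hBUind : M.Indep BU := hI₁.indep.subset hBUsub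
    obtain ⟨BM, hBM, hBUBM⟩ := hBUind.exists_isBase_superset
    have hBN : (N₀.disjointSum U hd).IsBase (B₀ ∪ BU) := by
      rw [disjointSum_isBase_iff]
      have h1 : (B₀ ∪ BU) ∩ N₀.E = B₀ := by
        ext a
        constructor
        · rintro ⟨ha | ha, haE⟩
          · exact ha
          · exact absurd (hBU.subset_ground ha) (fun haU => Set.disjoint_left.mp hd haE haU)
        · intro ha
          exact ⟨Or.inl ha, hB₀.subset_ground ha⟩
      have h2 : (B₀ ∪ BU) ∩ U.E = BU := by
        ext a
        constructor
        · rintro ⟨ha | ha, haE⟩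
          · exact absurd haE (fun haU => Set.disjoint_left.mp hd (hB₀.subset_ground ha) haU)
          · exact ha
        · intro ha
          exact ⟨Or.inr ha, hBU.subset_ground ha⟩
      rw [h1, h2]
      exact ⟨hB₀, hBU, union_subset_union hB₀.subset_ground hBU.subset_ground⟩
    have hEN : M.E = (N₀.disjointSum U hd).E := by rw [disjointSum_ground_eq, hE]
    apply intersection_of_bases_sdiff_finite' hEN hBM hBN
    right
    apply hB₀.finite.subset
    rintro a ⟨ha | ha, hna⟩
    · exact ha
    · exact absurd (hBUBM ha) hna

lemma disjointSum_restrict_right (N₀ U : Matroid α) (hd : Disjoint N₀.E U.E) :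
    (N₀.disjointSum U hd) ↾ U.E = U := by
  have h := disjointSum_restrict_left U N₀ hd.symm
  rwa [← disjointSum_comm] at h

/-- If `I` is independent in `M ／ C` and `K ⊆ C` is independent in `M`, then `I ∪ K` is
independent in `M`. -/
lemma indep_union_of_contract {M : Matroid α} {C I K : Set α} (hC : C ⊆ M.E)
    (hI : (M ／ C).Indep I) (hK : M.Indep K) (hKC : K ⊆ C) : M.Indep (I ∪ K) := by
  obtain ⟨IC, hIC, hKIC⟩ := hK.subset_isBasis_of_subset hKC hC
  exact ((hIC.contract_indep_iff.mp hI).1).subset (union_subset_union_right I hKIC)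

/-- Reduction by deletion: if a base `BU` of `U` is independent in `M ／ N₀.E`, then
intersection for `(M ↾ N₀.E, N₀)` lifts to intersection for `(M, N₀ ⊕ U)`. -/
lemma intersection_of_restrict (M N₀ U : Matroid α) (hd : Disjoint N₀.E U.E)
    (hE : M.E = N₀.E ∪ U.E) {BU : Set α} (hBU : U.IsBase BU) (hBUind : (M ／ N₀.E).Indep BU)
    (h : SatisfiesIntersection (M ↾ N₀.E) N₀) :
    SatisfiesIntersection M (N₀.disjointSum U hd) := by
  obtain ⟨JM, JN, hdis, hMind, hNind, hcl⟩ := h
  have hE₀ : N₀.E ⊆ M.E := hE ▸ subset_union_left
  have hJsub : JM ∪ JN ⊆ N₀.E := hNind.subset_ground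
  have hJMsub : JM ⊆ N₀.E := subset_union_left.trans hJsub
  have hJNsub : JN ⊆ N₀.E := subset_union_right.trans hJsub
  have hBUsub : BU ⊆ U.E := hBU.subset_ground
  have hMind' : M.Indep (BU ∪ (JM ∪ JN)) :=
    indep_union_of_contract hE₀ hBUind hMind.of_restrict hJsub
  refine ⟨JM, JN ∪ BU, ?_, ?_, ?_, ?_⟩
  · rw [Set.disjoint_left]
    rintro a haM (haN | haB)
    · exact Set.disjoint_left.mp hdis haM haN
    · exact Set.disjoint_left.mp hd (hJMsub haM) (hBUsub haB)
  · have : JM ∪ (JN ∪ BU) = BU ∪ (JM ∪ JN) := by
      rw [← union_assoc, union_comm]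
    rw [this]; exact hMind'
  · rw [disjointSum_indep_iff]
    refine ⟨hNind.subset ?_, hBU.indep.subset ?_, ?_⟩
    · rintro a ⟨haM | haN | haB, haE⟩
      · exact Or.inl haM
      · exact Or.inr haN
      · exact absurd (hBUsub haB) (fun haU => Set.disjoint_left.mp hd haE haU)
    · rintro a ⟨haM | haN | haB, haE⟩
      · exact absurd haE (fun haU => Set.disjoint_left.mp hd (hJMsub haM) haU)
      · exact absurd haE (fun haU => Set.disjoint_left.mp hd (hJNsub haN) haU)
      · exact haB
    · rintro a (haM | haN | haB)
      · exact Or.inl (hJMsub haM)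
      · exact Or.inl (hJNsub haN)
      · exact Or.inr (hBUsub haB)
  · apply subset_antisymm
    · apply union_subset (M.closure_subset_ground _)
      have := (N₀.disjointSum U hd).closure_subset_ground (JN ∪ BU)
      rwa [disjointSum_ground_eq, ← hE] at this
    · intro e he
      rw [hE] at he
      rcases he with he0 | he1
      · have he' : e ∈ (M ↾ N₀.E).closure JM ∪ N₀.closure JN := by
          rw [hcl, restrict_ground_eq]; exact he0
        rcases he' with h1 | h2
        · left
          rw [restrict_closure_eq _ hJMsub hE₀] at h1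
          exact h1.1
        · right
          have hres := disjointSum_restrict_left N₀ U hd
          have : N₀.closure JN = (N₀.disjointSum U hd).closure JN ∩ N₀.E := by
            conv_lhs => rw [← hres]
            rw [restrict_closure_eq _ hJNsub
              (by rw [disjointSum_ground_eq]; exact subset_union_left)]
          rw [this] at h2
          exact (N₀.disjointSum U hd).closure_subset_closure subset_union_left h2.1
      · right
        have hres := disjointSum_restrict_right N₀ U hd
        have h3 : e ∈ U.closure BU := by rw [hBU.closure_eq]; exact he1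
        have : U.closure BU = (N₀.disjointSum U hd).closure BU ∩ U.E := by
          conv_lhs => rw [← hres]
          rw [restrict_closure_eq _ hBUsub
            (by rw [disjointSum_ground_eq]; exact subset_union_right)]
        rw [this] at h3
        exact (N₀.disjointSum U hd).closure_subset_closure subset_union_right h3.1

/-- A matroid of finite rank or finite corank satisfies intersection with every matroid on the
same ground set. -/
lemma intersection_of_rankFinite_or_dual {M' N₀ : Matroid α} (hE : M'.E = N₀.E)
    (hN₀ : N₀.RankFinite ∨ N₀✶.RankFinite) : SatisfiesIntersection M' N₀ := by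
  obtain ⟨B', hB'⟩ := M'.exists_isBase
  obtain ⟨B₀, hB₀⟩ := N₀.exists_isBase
  rcases hN₀ with h | h
  · exact intersection_of_bases_sdiff_finite' hE hB' hB₀
      (Or.inr (hB₀.finite.subset sdiff_subset))
  · have hfin : (N₀.E \ B₀).Finite := (hB₀.compl_isBase_dual).finite
    refine intersection_of_bases_sdiff_finite' hE hB' hB₀ (Or.inl (hfin.subset ?_))
    rintro a ⟨ha, hna⟩
    exact ⟨hE ▸ hB'.subset_ground ha, hna⟩

/-- Intersection holds for an arbitrary matroid paired with the direct sum of a uniform matroid
and a matroid of finite rank or finite corank. -/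
theorem intersection_finite_sum_uniform (M N₀ U : Matroid α) (hd : Disjoint N₀.E U.E)
    (hE : M.E = N₀.E ∪ U.E) (hN₀ : N₀.RankFinite ∨ N₀✶.RankFinite) (hU : IsUniform U) :
    SatisfiesIntersection M (N₀.disjointSum U hd) := by
  have hUE : U.E ⊆ M.E := hE ▸ subset_union_right
  have hE₀ : N₀.E ⊆ M.E := hE ▸ subset_union_left
  have hME₁ : (M ／ U.E).E = N₀.E := by
    rw [contract_ground, hE]
    ext a
    constructor
    · rintro ⟨ha | ha, hna⟩
      · exact ha
      · exact absurd ha hna
    · intro ha
      exact ⟨Or.inl ha, fun haU => Set.disjoint_left.mp hd ha haU⟩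
  have hME₀ : (M ／ N₀.E).E = U.E := by
    rw [contract_ground, hE]
    ext a
    constructor
    · rintro ⟨ha | ha, hna⟩
      · exact absurd ha hna
      · exact ha
    · intro ha
      exact ⟨Or.inr ha, fun ha0 => Set.disjoint_left.mp hd ha0 ha⟩
  -- a base `Y` of `M ／ N₀.E` and an `M`-basis `I₁ ⊇ Y` of `U.E`
  obtain ⟨Y, hY⟩ := (M ／ N₀.E).exists_isBase
  have hYU : Y ⊆ U.E := hME₀ ▸ hY.subset_ground
  have hYind : M.Indep Y := hY.indep.of_contract
  obtain ⟨I₁, hI₁, hYI₁⟩ := hYind.subset_isBasis_of_subset hYU hUE
  rcases hU I₁ hI₁.subset with hind | hsp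
  · exact intersection_of_contract M N₀ U hd hE hI₁ hind
      (intersection_of_rankFinite_or_dual hME₁ hN₀)
  · rcases hU Y hYU with hYind' | hYsp
    · -- sandwich: a base `X` of `U` with `Y ⊆ X ⊆ I₁`
      have hYres : (U ↾ I₁).Indep Y := hYind'.indep_restrict_of_subset hYI₁
      obtain ⟨X, hX, hYX⟩ := hYres.exists_isBase_superset
      rw [hsp.isBase_restrict_iff] at hX
      obtain ⟨hXbase, hXI₁⟩ := hX
      have hXind : M.Indep X := hI₁.indep.subset hXI₁
      have hXU : X ⊆ U.E := hXbase.subset_ground
      have hspan : M.Spanning (X ∪ N₀.E) := by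
        have h1 : M.Spanning (Y ∪ N₀.E) := ((contract_spanning_iff hE₀).mp hY.spanning).1
        exact h1.superset (union_subset_union_left _ hYX)
          (union_subset (hXU.trans hUE) hE₀)
      obtain ⟨BM, hBMbasis, hXBM⟩ := hXind.subset_isBasis_of_subset
        (subset_union_left : X ⊆ X ∪ N₀.E) (union_subset (hXU.trans hUE) hE₀)
      have hBM : M.IsBase BM := hBMbasis.isBase_of_spanning hspan
      obtain ⟨B₀, hB₀⟩ := N₀.exists_isBase
      have hBN : (N₀.disjointSum U hd).IsBase (B₀ ∪ X) := by
        rw [disjointSum_isBase_iff]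
        have h1 : (B₀ ∪ X) ∩ N₀.E = B₀ := by
          ext a
          constructor
          · rintro ⟨ha | ha, haE⟩
            · exact ha
            · exact absurd (hXU ha) (fun haU => Set.disjoint_left.mp hd haE haU)
          · intro ha
            exact ⟨Or.inl ha, hB₀.subset_ground ha⟩
        have h2 : (B₀ ∪ X) ∩ U.E = X := by
          ext a
          constructor
          · rintro ⟨ha | ha, haE⟩
            · exact absurd haE (fun haU => Set.disjoint_left.mp hd (hB₀.subset_ground ha) haU)
            · exact ha
          · intro ha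
            exact ⟨Or.inr ha, hXU ha⟩
        rw [h1, h2]
        exact ⟨hB₀, hXbase, union_subset_union hB₀.subset_ground hXU⟩
      have hEN : M.E = (N₀.disjointSum U hd).E := by rw [disjointSum_ground_eq, hE]
      apply intersection_of_bases_sdiff_finite' hEN hBM hBN
      rcases hN₀ with h | h
      · right
        apply hB₀.finite.subset
        rintro a ⟨ha | ha, hna⟩
        · exact ha
        · exact absurd (hXBM ha) hna
      · left
        have hfin : (N₀.E \ B₀).Finite := (hB₀.compl_isBase_dual).finite
        apply hfin.subset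
        rintro a ⟨ha, hna⟩
        rcases hBMbasis.subset ha with haX | ha0
        · exact absurd (Or.inr haX) hna
        · exact ⟨ha0, fun haB => hna (Or.inl haB)⟩
    · obtain ⟨BU, hBU, hBUY⟩ := hYsp.exists_isBase_subset
      refine intersection_of_restrict M N₀ U hd hE hBU (hY.indep.subset hBUY) ?_
      exact intersection_of_rankFinite_or_dual (by rw [restrict_ground_eq]) hN₀

end Vale.Agent.Lib.P068
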