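import Mathlib.Combinatorics.Matroid.Minor.Contract
import Mathlib.Order.Zorn
import Vale.Agent.Lib.P068.Defs

namespace Vale.Agent.Lib.P068

open Set Matroid

variable {α ι : Type*}

lemma contract_onto_eq (M : Matroid α) {E P C : Set α} (hE : M.E = E) (hPC : P ∪ C = E)
    (hd : Disjoint P C) : (M.dual.restrict C).dual = M ／ P := by
  have : C = M.E \ P := by
    rw [hE, ← hPC]
    ext x; constructor
    · intro hx; exact ⟨Or.inr hx, fun hxP => (Set.disjoint_left.mp hd hxP hx)⟩
    · rintro ⟨hx | hx, hxP⟩
      · exact absurd hx hxP
      · exact hx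
  subst this
  rfl

lemma IsUniform.restrict {M : Matroid α} (hM : IsUniform M) {P : Set α} (hP : P ⊆ M.E) :
    IsUniform (M ↾ P) := by
  intro X hX
  rw [restrict_ground_eq] at hX
  rcases hM X (hX.trans hP) with h | h
  · exact Or.inl (h.indep_restrict_of_subset hX)
  · right
    rw [restrict_spanning_iff hX hP, h.closure_eq]
    exact hP

/-- Greedy lemma: a family of uniform matroids either has pairwise disjoint bases inside `R`,
or independent sets covering `R`. -/
lemma uniform_packing_or_covering {κ : Type*} (U : κ → Matroid α) (hU : ∀ j, IsUniform (U j))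
    (R : Set α) (hR : ∀ j, R ⊆ (U j).E) :
    (∃ T : κ → Set α, (∀ j, T j ⊆ R) ∧ Pairwise (fun i j => Disjoint (T i) (T j)) ∧
        ∀ j, (U j).IsBase (T j)) ∨
    (∃ T : κ → Set α, (∀ j, T j ⊆ R) ∧ (∀ j, (U j).Indep (T j)) ∧ (⋃ j, T j) = R) := by
  classical
  let s : Set (κ → Set α) := {T | (∀ j, T j ⊆ R) ∧ Pairwise (fun i j => Disjoint (T i) (T j)) ∧
      ∀ j, T j = ∅ ∨ (U j).IsBase (T j)}
  obtain ⟨T, hT⟩ := zorn_le₀ s (by
    intro c hcs hc
    refine ⟨fun j => ⋃ T ∈ c, T j, ⟨?_, ?_, ?_⟩, ?_⟩
    · intro j x hx
      simp only [mem_iUnion] at hx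
      obtain ⟨T, hT, hx⟩ := hx
      exact (hcs hT).1 j hx
    · intro i j hij
      rw [Set.disjoint_left]
      intro x hxi hxj
      simp only [mem_iUnion] at hxi hxj
      obtain ⟨T₁, hT₁, hx₁⟩ := hxi
      obtain ⟨T₂, hT₂, hx₂⟩ := hxj
      rcases hc.total hT₁ hT₂ with h | h
      · exact Set.disjoint_left.mp ((hcs hT₂).2.1 hij) (h i hx₁) hx₂
      · exact Set.disjoint_left.mp ((hcs hT₁).2.1 hij) hx₁ (h j hx₂)
    · intro j
      by_cases hne : ∃ T ∈ c, (U j).IsBase (T j)
      · obtain ⟨T₁, hT₁, hB⟩ := hne
        right
        have : (⋃ T ∈ c, T j) = T₁ j := by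
          apply subset_antisymm
          · intro x hx
            simp only [mem_iUnion] at hx
            obtain ⟨T₂, hT₂, hx₂⟩ := hx
            rcases (hcs hT₂).2.2 j with h0 | hB₂
            · rw [h0] at hx₂; exact absurd hx₂ (Set.notMem_empty x)
            · rcases hc.total hT₁ hT₂ with h | h
              · rw [hB.eq_of_subset_isBase hB₂ (h j)]; exact hx₂
              · exact h j hx₂
          · exact Set.subset_biUnion_of_mem (u := fun T => T j) hT₁
        show (U j).IsBase (⋃ T ∈ c, T j)
        rw [this]; exact hB
      · left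
        have hne : ∀ T ∈ c, ¬ (U j).IsBase (T j) := fun T hT hB => hne ⟨T, hT, hB⟩
        apply Set.eq_empty_of_forall_notMem
        intro x hx
        simp only [mem_iUnion] at hx
        obtain ⟨T₂, hT₂, hx₂⟩ := hx
        rcases (hcs hT₂).2.2 j with h0 | hB₂
        · rw [h0] at hx₂; exact hx₂
        · exact hne T₂ hT₂ hB₂
    · intro T hT j
      exact Set.subset_biUnion_of_mem (u := fun T => T j) hT)
  obtain ⟨⟨hTR, hTd, hTb⟩, hmax⟩ := hT
  by_cases hall : ∀ j, (U j).IsBase (T j)
  · exact Or.inl ⟨T, hTR, hTd, hall⟩
  · right
    obtain ⟨j₀, hj₀⟩ := not_forall.mp hall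
    have hj₀e : T j₀ = ∅ := (hTb j₀).resolve_right hj₀
    have hR'ind : (U j₀).Indep (R \ ⋃ j, T j) := by
      rcases hU j₀ (R \ ⋃ j, T j) (sdiff_subset.trans (hR j₀)) with h | h
      · exact h
      · exfalso
        obtain ⟨B, hB, hBR⟩ := h.exists_isBase_subset
        have hT'mem : Function.update T j₀ B ∈ s := by
          refine ⟨?_, ?_, ?_⟩
          · intro j
            by_cases hj : j = j₀
            · subst hj; simp only [Function.update_self]; exact hBR.trans sdiff_subset
            · simp only [Function.update_of_ne hj]; exact hTR j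
          · intro i j hij
            by_cases hi : i = j₀
            · subst hi
              have hj : j ≠ i := fun h => hij h.symm
              simp only [Function.update_self, Function.update_of_ne hj]
              rw [Set.disjoint_left]
              intro x hxB hxj
              exact (hBR hxB).2 (mem_iUnion.mpr ⟨j, hxj⟩)
            · by_cases hj : j = j₀
              · subst hj
                simp only [Function.update_self, Function.update_of_ne hi]
                rw [Set.disjoint_right]
                intro x hxB hxi
                exact (hBR hxB).2 (mem_iUnion.mpr ⟨i, hxi⟩)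
              · simp only [Function.update_of_ne hi, Function.update_of_ne hj]
                exact hTd hij
          · intro j
            by_cases hj : j = j₀
            · subst hj; right; simp only [Function.update_self]; exact hB
            · simp only [Function.update_of_ne hj]; exact hTb j
        have hle : T ≤ Function.update T j₀ B := by
          intro j
          by_cases hj : j = j₀
          · subst hj; rw [hj₀e]; exact empty_subset _
          · simp only [Function.update_of_ne hj]; exact le_rfl
        have hge := hmax hT'mem hle j₀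
        simp only [Function.update_self] at hge
        rw [hj₀e] at hge
        have : B = ∅ := Set.subset_empty_iff.mp hge
        rw [this, ← hj₀e] at hB
        exact hj₀ hB
    refine ⟨Function.update T j₀ (R \ ⋃ j, T j), ?_, ?_, ?_⟩
    · intro j
      by_cases hj : j = j₀
      · subst hj; simp only [Function.update_self]; exact sdiff_subset
      · simp only [Function.update_of_ne hj]; exact hTR j
    · intro j
      by_cases hj : j = j₀
      · subst hj; simp only [Function.update_self]; exact hR'ind
      · simp only [Function.update_of_ne hj]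
        rcases hTb j with h | h
        · rw [h]; exact (U j).empty_indep
        · exact h.indep
    · apply subset_antisymm
      · intro x hx
        obtain ⟨j, hxj⟩ := mem_iUnion.mp hx
        by_cases hj : j = j₀
        · subst hj; simp only [Function.update_self] at hxj; exact hxj.1
        · simp only [Function.update_of_ne hj] at hxj; exact hTR j hxj
      · intro x hx
        by_cases hxT : x ∈ ⋃ j, T j
        · obtain ⟨j, hxj⟩ := mem_iUnion.mp hxT
          have hj : j ≠ j₀ := by
            rintro rfl
            rw [hj₀e] at hxj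
            exact hxj
          exact mem_iUnion.mpr ⟨j, by simp only [Function.update_of_ne hj]; exact hxj⟩
        · exact mem_iUnion.mpr ⟨j₀, by simp only [Function.update_self]; exact ⟨hx, hxT⟩⟩

/-- Extension lemma: if the subfamily indexed by `A` has a packing/covering partition and all
members outside `A` are uniform, then the whole family has a packing/covering partition. -/
theorem uniform_extension (E : Set α) (M : ι → Matroid α) (hE : ∀ i, (M i).E = E)
    (A : Set ι) (hU : ∀ i, i ∉ A → IsUniform (M i))
    (hA : HasPackingCovering E (fun a : A => M a)) : HasPackingCovering E M := by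
  classical
  obtain ⟨P, C, S, I, hPC, hd, hSP, hIC, hSd, hScl, hIind, hIU⟩ := hA
  have hPE : P ⊆ E := hPC ▸ subset_union_left
  have hCE : C ⊆ E := hPC ▸ subset_union_right
  have hB : ∀ a : A, ∃ B, ((M a) ↾ P).IsBase B ∧ B ⊆ S a := by
    intro a
    have hsp : ((M a) ↾ P).Spanning (S a) := by
      rw [spanning_iff_closure_eq (hSP a)]
      exact hScl a
    exact hsp.exists_isBase_subset
  choose B hBbase hBS using hB
  have hBP : ∀ a : A, B a ⊆ P := fun a => (hBS a).trans (hSP a)
  have key := uniform_packing_or_covering (fun j : {i : ι // i ∉ A} => (M j) ↾ P)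
    (fun j => (hU j j.2).restrict (by rw [hE]; exact hPE)) (P \ ⋃ a : A, B a)
    (fun j => sdiff_subset)
  rcases key with ⟨T, hTR, hTd, hTb⟩ | ⟨T, hTR, hTi, hTU⟩
  · refine ⟨P, C, fun i => if h : i ∈ A then B ⟨i, h⟩ else T ⟨i, h⟩,
      fun i => if h : i ∈ A then I ⟨i, h⟩ else ∅, hPC, hd, ?_, ?_, ?_, ?_, ?_, ?_⟩
    · intro i
      by_cases h : i ∈ A
      · simp only [dif_pos h]; exact hBP _
      · simp only [dif_neg h]; exact (hTR _).trans sdiff_subset
    · intro i
      by_cases h : i ∈ A
      · simp only [dif_pos h]; exact hIC _
      · simp only [dif_neg h]; exact empty_subset _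
    · intro i j hij
      by_cases hi : i ∈ A
      · by_cases hj : j ∈ A
        · simp only [dif_pos hi, dif_pos hj]
          have hne : (⟨i, hi⟩ : A) ≠ ⟨j, hj⟩ := fun h => hij (congrArg Subtype.val h)
          exact (hSd hne).mono (hBS _) (hBS _)
        · simp only [dif_pos hi, dif_neg hj]
          rw [Set.disjoint_left]
          intro x hxB hxT
          exact (hTR _ hxT).2 (mem_iUnion.mpr ⟨⟨i, hi⟩, hxB⟩)
      · by_cases hj : j ∈ A
        · simp only [dif_neg hi, dif_pos hj]
          rw [Set.disjoint_left]
          intro x hxT hxB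
          exact (hTR _ hxT).2 (mem_iUnion.mpr ⟨⟨j, hj⟩, hxB⟩)
        · simp only [dif_neg hi, dif_neg hj]
          have hne : (⟨i, hi⟩ : {i : ι // i ∉ A}) ≠ ⟨j, hj⟩ :=
            fun h => hij (congrArg Subtype.val h)
          exact hTd hne
    · intro i
      by_cases h : i ∈ A
      · simp only [dif_pos h]
        have := (hBbase ⟨i, h⟩).closure_eq
        rwa [restrict_ground_eq] at this
      · simp only [dif_neg h]
        have := (hTb ⟨i, h⟩).closure_eq
        rwa [restrict_ground_eq] at this
    · intro i
      by_cases h : i ∈ A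
      · simp only [dif_pos h]; exact hIind ⟨i, h⟩
      · simp only [dif_neg h]; exact Matroid.empty_indep _
    · apply subset_antisymm
      · intro x hx
        obtain ⟨i, hxi⟩ := mem_iUnion.mp hx
        by_cases h : i ∈ A
        · simp only [dif_pos h] at hxi; exact hIC _ hxi
        · simp only [dif_neg h] at hxi; exact absurd hxi (Set.notMem_empty x)
      · intro x hx
        rw [← hIU] at hx
        obtain ⟨a, hxa⟩ := mem_iUnion.mp hx
        exact mem_iUnion.mpr ⟨a.1, by simp only [dif_pos a.2]; exact hxa⟩
  · refine ⟨∅, E, fun _ => ∅,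
      fun i => if h : i ∈ A then B ⟨i, h⟩ ∪ I ⟨i, h⟩ else T ⟨i, h⟩,
      empty_union E, Set.empty_disjoint E, fun _ => subset_rfl, ?_, ?_, ?_, ?_, ?_⟩
    · intro i
      by_cases h : i ∈ A
      · simp only [dif_pos h]
        exact union_subset ((hBP _).trans hPE) ((hIC _).trans hCE)
      · simp only [dif_neg h]
        exact ((hTR _).trans sdiff_subset).trans hPE
    · intro i j _
      exact Set.empty_disjoint _
    · intro i
      have := ((M i) ↾ (∅ : Set α)).closure_subset_ground ∅
      rw [restrict_ground_eq] at this
      exact Set.subset_empty_iff.mp this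
    · intro i
      have hrw : ((M i).dual.restrict E).dual = M i := by
        have : (M i).dual.restrict E = (M i).dual := by
          rw [← hE i]; exact (M i).dual.restrict_ground_eq_self
        rw [this, dual_dual]
      rw [hrw]
      by_cases h : i ∈ A
      · simp only [dif_pos h]
        have h1 : ((M i) ／ P).Indep (I ⟨i, h⟩) := by
          rw [← contract_onto_eq (M i) (hE i) hPC hd]; exact hIind ⟨i, h⟩
        have h2 : (M i).IsBasis (B ⟨i, h⟩) P := by
          have := (hBbase ⟨i, h⟩)
          rw [isBase_restrict_iff'] at this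
          exact this.isBasis (by rw [hE]; exact hPE)
        rw [union_comm]
        exact (h2.contract_indep_iff.mp h1).1
      · simp only [dif_neg h]
        exact (hTi ⟨i, h⟩).of_restrict
    · apply subset_antisymm
      · intro x hx
        obtain ⟨i, hxi⟩ := mem_iUnion.mp hx
        by_cases h : i ∈ A
        · simp only [dif_pos h] at hxi
          rcases hxi with hxi | hxi
          · exact hPE (hBP _ hxi)
          · exact hCE (hIC _ hxi)
        · simp only [dif_neg h] at hxi
          exact hPE (hTR _ hxi).1
      · intro x hx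
        rw [← hPC] at hx
        rcases hx with hxP | hxC
        · by_cases hxB : x ∈ ⋃ a : A, B a
          · obtain ⟨a, hxa⟩ := mem_iUnion.mp hxB
            exact mem_iUnion.mpr ⟨a.1, by simp only [dif_pos a.2]; exact Or.inl hxa⟩
          · have hxR : x ∈ ⋃ j, T j := by rw [hTU]; exact ⟨hxP, hxB⟩
            obtain ⟨j, hxj⟩ := mem_iUnion.mp hxR
            exact mem_iUnion.mpr ⟨j.1, by simp only [dif_neg j.2]; exact hxj⟩
        · rw [← hIU] at hxC
          obtain ⟨a, hxa⟩ := mem_iUnion.mp hxC
          exact mem_iUnion.mpr ⟨a.1, by simp only [dif_pos a.2]; exact Or.inr hxa⟩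

/-- Every family with at most one non-uniform member has a packing/covering partition. -/
theorem one_nonuniform (E : Set α) (M : ι → Matroid α) (hE : ∀ i, (M i).E = E)
    (h : ∀ i j, ¬ IsUniform (M i) → ¬ IsUniform (M j) → i = j) : HasPackingCovering E M := by
  classical
  apply uniform_extension E M hE {i | ¬ IsUniform (M i)} (fun i hi => not_not.mp hi)
  have hB : ∀ a : {i | ¬ IsUniform (M i)}, ∃ B, (M a).IsBase B := fun a => (M a).exists_isBase
  choose B hB using hB
  refine ⟨E, ∅, B, fun _ => ∅, union_empty E, Set.disjoint_empty E, ?_, fun _ => subset_rfl,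
    ?_, ?_, ?_, iUnion_empty⟩
  · intro a
    rw [← hE a]; exact (hB a).subset_ground
  · intro a b hab
    exact absurd (Subtype.ext (h a b a.2 b.2)) hab
  · intro a
    have : (M a).restrict E = M a := by rw [← hE a]; exact (M a).restrict_ground_eq_self
    rw [this, (hB a).closure_eq, hE a]
  · intro a
    exact Matroid.empty_indep _

end Vale.Agent.Lib.P068
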